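import Mathlib.Algebra.Group.ForwardDiff
import Mathlib.Data.Nat.Choose.Basic
import Mathlib.Tactic

/-! Elementary facts on finite differences of integer sequences. -/

namespace Vale.Agent.P200

open Function

/-- forward difference with step `s` -/
def dd (s : ℕ) (f : ℕ → ℤ) : ℕ → ℤ := fun n => f (n + s) - f n

/-- `f` is eventually equal to `e` -/
def EvC (f : ℕ → ℤ) (e : ℤ) : Prop := ∃ N, ∀ n, N ≤ n → f n = e

lemma dd_iter_add (s m : ℕ) (f g : ℕ → ℤ) :
    (dd s)^[m] (fun n => f n + g n) = fun n => (dd s)^[m] f n + (dd s)^[m] g n := by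
  induction m generalizing f g with
  | zero => rfl
  | succ m ih =>
    simp only [iterate_succ_apply]
    rw [← ih]
    congr 1
    funext n
    simp only [dd]; ring

lemma dd_iter_sub (s m : ℕ) (f g : ℕ → ℤ) :
    (dd s)^[m] (fun n => f n - g n) = fun n => (dd s)^[m] f n - (dd s)^[m] g n := by
  induction m generalizing f g with
  | zero => rfl
  | succ m ih =>
    simp only [iterate_succ_apply]
    rw [← ih]
    congr 1
    funext n
    simp only [dd]; ring

lemma dd_iter_mul (s m : ℕ) (a : ℤ) (f : ℕ → ℤ) :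
    (dd s)^[m] (fun n => a * f n) = fun n => a * (dd s)^[m] f n := by
  induction m generalizing f with
  | zero => rfl
  | succ m ih =>
    simp only [iterate_succ_apply]
    rw [← ih]
    congr 1
    funext n
    simp only [dd]; ring

lemma dd_iter_shift (s m k : ℕ) (f : ℕ → ℤ) :
    (dd s)^[m] (fun n => f (n + k)) = fun n => (dd s)^[m] f (n + k) := by
  induction m generalizing f with
  | zero => rfl
  | succ m ih =>
    simp only [iterate_succ_apply]
    rw [← ih]
    congr 1
    funext n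
    simp only [dd]
    congr 2
    ring

lemma dd_iter_dvd (s m : ℕ) (a : ℤ) (f : ℕ → ℤ) (h : ∀ n, a ∣ f n) (n : ℕ) :
    a ∣ (dd s)^[m] f n := by
  induction m generalizing f with
  | zero => exact h n
  | succ m ih =>
    rw [iterate_succ_apply]
    exact ih _ fun n => (h _).sub (h _)

lemma evC_of_dd (f : ℕ → ℤ) (h : EvC (dd 1 f) 0) : ∃ e, EvC f e := by
  obtain ⟨N, hN⟩ := h
  refine ⟨f N, N, fun n hn => ?_⟩
  induction n, hn using Nat.le_induction with
  | base => rfl
  | succ n hn ih =>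
    have := hN n hn
    simp only [dd] at this
    omega

lemma neg_of_dd_neg (f : ℕ → ℤ) (h : ∃ N, ∀ n, N ≤ n → dd 1 f n ≤ -1) :
    ∃ N, ∀ n, N ≤ n → f n ≤ -1 := by
  obtain ⟨N, hN⟩ := h
  have key : ∀ k : ℕ, f (N + k) ≤ f N - k := by
    intro k
    induction k with
    | zero => simp
    | succ k ih =>
      have := hN (N + k) (by omega)
      simp only [dd] at this
      have e : N + (k + 1) = N + k + 1 := by ring
      rw [e]; push_cast; omega
  refine ⟨N + (f N).natAbs + 1, fun n hn => ?_⟩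
  have := key (n - N)
  rw [show N + (n - N) = n by omega] at this
  omega

lemma nonneg_of_evC (m : ℕ) (f : ℕ → ℤ) (e : ℤ) (hf : ∀ n, 0 ≤ f n)
    (h : EvC ((dd 1)^[m] f) e) : 0 ≤ e := by
  by_contra hneg
  have key : ∀ m (g : ℕ → ℤ), (∃ N, ∀ n, N ≤ n → (dd 1)^[m] g n ≤ -1) →
      ∃ N, ∀ n, N ≤ n → g n ≤ -1 := by
    intro m
    induction m with
    | zero => intro g h; exact h
    | succ m ih =>
      intro g h
      exact neg_of_dd_neg g (ih _ h)
  obtain ⟨N, hN⟩ := h
  obtain ⟨N', hN'⟩ := key m f ⟨N, fun n hn => by rw [hN n hn]; omega⟩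
  have := hN' N' le_rfl
  have := hf N'
  omega

lemma evC_two (m : ℕ) (f : ℕ → ℤ) (e : ℤ) (h : EvC ((dd 1)^[m] f) e) :
    EvC ((dd 2)^[m] f) (2 ^ m * e) := by
  induction m generalizing f e with
  | zero => simpa using h
  | succ m ih =>
    rw [iterate_succ_apply] at h ⊢
    have e1 : dd 2 f = fun n => dd 1 f (n + 1) + dd 1 f n := by
      funext n; simp only [dd]; ring
    have h2 : EvC ((dd 1)^[m] (dd 2 f)) (2 * e) := by
      rw [e1, dd_iter_add, dd_iter_shift]
      obtain ⟨N, hN⟩ := h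
      refine ⟨N, fun n hn => ?_⟩
      simp only
      rw [hN n hn, hN (n + 1) (by omega)]; ring
    have := ih _ _ h2
    convert this using 1
    ring

lemma dd_iter_two (m i : ℕ) (f : ℕ → ℤ) :
    (dd 1)^[m] (fun j => f (i + 2 * j)) = fun j => (dd 2)^[m] f (i + 2 * j) := by
  induction m generalizing f with
  | zero => rfl
  | succ m ih =>
    simp only [iterate_succ_apply]
    rw [← ih]
    congr 1

lemma dd_multichoose (m : ℕ) :
    (dd 1)^[m] (fun n => (Nat.multichoose (m + 1) n : ℤ)) = fun _ => 1 := by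
  induction m with
  | zero => funext n; simp
  | succ m ih =>
    rw [iterate_succ_apply]
    have : dd 1 (fun n => (Nat.multichoose (m + 1 + 1) n : ℤ)) =
        fun n => (Nat.multichoose (m + 1) (n + 1) : ℤ) := by
      funext n
      simp only [dd, Nat.multichoose_succ_succ]
      push_cast; ring
    rw [this, dd_iter_shift 1 m 1 (fun n => (Nat.multichoose (m + 1) n : ℤ)), ih]

lemma dd_iter_eq_sum (m : ℕ) (f : ℕ → ℤ) (n : ℕ) :
    (dd 1)^[m] f n = ∑ k ∈ Finset.range (m + 1), (-1) ^ (m - k) * (m.choose k : ℤ) * f (n + k) := by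
  have := fwdDiff_iter_eq_sum_shift (h := (1 : ℕ)) f m n
  have e : dd 1 = fwdDiff (1 : ℕ) := by
    funext g n; simp [dd, fwdDiff]
  rw [e, this]
  simp

/-- positivity of the multiplicity of a sequence dominating the Hilbert function of a polynomial
ring in variables of degree two -/
lemma pos_of_lower (m i : ℕ) (f : ℕ → ℤ) (e : ℤ) (h : EvC ((dd 1)^[m] f) e)
    (hl : ∀ j, (Nat.multichoose (m + 1) j : ℤ) ≤ f (i + 2 * j)) : 0 < e := by
  have h2 := evC_two m f e h
  have h3 : EvC ((dd 1)^[m] (fun j => f (i + 2 * j) - (Nat.multichoose (m + 1) j : ℤ)))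
      (2 ^ m * e - 1) := by
    rw [dd_iter_sub, dd_iter_two, dd_multichoose]
    obtain ⟨N, hN⟩ := h2
    refine ⟨N, fun n hn => ?_⟩
    simp only
    rw [hN _ (by omega)]
  have := nonneg_of_evC m _ _ (fun n => by have := hl n; omega) h3
  by_contra hneg
  have : 2 ^ m * e ≤ 0 := mul_nonpos_of_nonneg_of_nonpos (by positivity) (by omega)
  omega

/-- the numerical contradiction behind the absence of zero divisors -/
lemma numeric_contra (m : ℕ) (δ : ℤ) (hδ : 0 < δ) (f g : ℕ → ℤ) (i j : ℕ)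
    (hf0 : EvC ((dd 1)^[m + 1] f) 0) (hg0 : EvC ((dd 1)^[m + 1] g) 0)
    (hfd : ∀ n, δ ∣ f n) (hgd : ∀ n, δ ∣ g n)
    (hfl : ∀ k, (Nat.multichoose (m + 1) k : ℤ) ≤ f (i + 2 * k))
    (hgl : ∀ k, (Nat.multichoose (m + 1) k : ℤ) ≤ g (j + 2 * k))
    (hu : ∀ n, f n + g n ≤ δ * (Nat.multichoose (m + 1) n : ℤ)) : False := by
  rw [iterate_succ_apply'] at hf0 hg0
  obtain ⟨e1, h1⟩ := evC_of_dd _ hf0
  obtain ⟨e2, h2⟩ := evC_of_dd _ hg0
  have p1 := pos_of_lower m i f e1 h1 hfl
  have p2 := pos_of_lower m j g e2 h2 hgl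
  have d1 : δ ∣ e1 := by
    obtain ⟨N, hN⟩ := h1
    rw [← hN N le_rfl]; exact dd_iter_dvd _ _ _ _ hfd _
  have d2 : δ ∣ e2 := by
    obtain ⟨N, hN⟩ := h2
    rw [← hN N le_rfl]; exact dd_iter_dvd _ _ _ _ hgd _
  have l1 := Int.le_of_dvd p1 d1
  have l2 := Int.le_of_dvd p2 d2
  have h3 : EvC ((dd 1)^[m] (fun n => δ * (Nat.multichoose (m + 1) n : ℤ) - (f n + g n)))
      (δ - (e1 + e2)) := by
    rw [dd_iter_sub, dd_iter_mul, dd_multichoose, dd_iter_add]
    obtain ⟨N1, hN1⟩ := h1
    obtain ⟨N2, hN2⟩ := h2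
    refine ⟨max N1 N2, fun n hn => ?_⟩
    simp only
    rw [hN1 n (by omega), hN2 n (by omega)]; ring
  have := nonneg_of_evC m _ _ (fun n => by have := hu n; omega) h3
  omega

end Vale.Agent.P200
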