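import Vale.Agent.P200.Reg
import Mathlib.RingTheory.Depth.Rees
import Mathlib.RingTheory.Ideal.AssociatedPrime.Finiteness
import Mathlib.Algebra.Module.Submodule.Union
import Mathlib.RingTheory.Polynomial.Basic

/-! Elimination of superfluous variables by general linear forms. -/

namespace Vale.Agent.P200

open MvPolynomial RingTheory.Sequence Module CategoryTheory Abelian

universe u

lemma hom_subsingleton {R : Type u} [CommRing R] (N : ModuleCat.{u} R) (rs : List R) :
    ∀ (M : ModuleCat.{u} R), IsWeaklyRegular M rs →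
      (∀ j ≤ rs.length, Subsingleton (Ext N M j)) →
      Subsingleton (N →ₗ[R] (M ⧸ (Ideal.ofList rs • ⊤ : Submodule R M))) := by
  induction rs with
  | nil =>
    intro M _ h
    have : Subsingleton (N ⟶ M) := Ext.addEquiv₀.subsingleton_congr.mp (h 0 le_rfl)
    have : Subsingleton (N →ₗ[R] M) := ModuleCat.homAddEquiv.symm.subsingleton
    have e : (M ⧸ (Ideal.ofList ([] : List R) • ⊤ : Submodule R M)) ≃ₗ[R] M :=
      Submodule.quotEquivOfEqBot _ (by simp)
    exact (LinearEquiv.congrRight e).toEquiv.subsingleton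
  | cons x rs ih =>
    intro M hreg h
    rw [isWeaklyRegular_cons_iff] at hreg
    have h' : ∀ j ≤ rs.length, Subsingleton (Ext N (ModuleCat.of R (QuotSMulTop x M)) j) := by
      intro i hi
      have zero1 := AddCommGrpCat.isZero_of_iff_subsingleton.mpr (h i (by simp; omega))
      have zero2 := AddCommGrpCat.isZero_of_iff_subsingleton.mpr (h (i + 1) (by simp; omega))
      exact AddCommGrpCat.subsingleton_of_isZero <| ShortComplex.Exact.isZero_of_both_zeros
        ((Ext.covariant_sequence_exact₃' N hreg.1.smulShortComplex_shortExact) i (i + 1) rfl)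
        (zero1.eq_zero_of_src _) (zero2.eq_zero_of_tgt _)
    have := ih (ModuleCat.of R (QuotSMulTop x M)) hreg.2 h'
    exact (LinearEquiv.congrRight
      (Submodule.quotOfListConsSMulTopEquivQuotSMulTopInner M x rs)).toEquiv.subsingleton

variable {k : Type u} [Field k] {n c : ℕ}

lemma isReg_X : IsReg (fun i : Fin n => (X i : MvPolynomial (Fin n) k)) := by
  classical
  intro i g hg
  rw [idl, mem_ideal_span_X_image] at hg ⊢
  intro u hu
  have : Finsupp.single i 1 + u ∈ (X i * g).support := by
    rw [support_X_mul]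
    exact Finset.mem_map.mpr ⟨u, hu, rfl⟩
  obtain ⟨j, hj, hj'⟩ := hg _ this
  refine ⟨j, hj, ?_⟩
  have : i ≠ j := by
    rintro rfl
    exact lt_irrefl (i : ℕ) hj
  simpa [Finsupp.single_apply, this] using hj'

lemma socle_zero {f : Fin c → MvPolynomial (Fin n) k} (hreg : IsReg f) {m : ℕ} (hm : m < n)
    (g : MvPolynomial (Fin n) k) (hg : ∀ j, X j * g ∈ idl f m) : g ∈ idl f m := by
  let S := MvPolynomial (Fin n) k
  let I : Ideal S := Ideal.span (Set.range X)
  have hI : I ≠ ⊤ := by
    rw [Ideal.ne_top_iff_one]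
    intro h
    have := idl_coeff_zero (f := fun i : Fin n => (X i : S)) Nat.one_pos
      (fun i => isHomogeneous_X k i) n (g := 1) (by rw [idl_top]; exact h)
    simp at this
  have hext := ModuleCat.subsingleton_ext_of_exists_isRegular I (ModuleCat.of S (S ⧸ I))
    (by rw [Module.support_eq_zeroLocus, Ideal.annihilator_quotient])
    (ModuleCat.of S S) (by simpa using hI.lt_top) (List.ofFn fun i : Fin n => (X i : S))
    (by
      intro r hr
      obtain ⟨i, rfl⟩ := (List.mem_ofFn' _ _).mp hr
      exact Ideal.subset_span ⟨i, rfl⟩)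
    ⟨(isReg_iff _).mp isReg_X, by
      have := ofList_take (fun i : Fin n => (X i : S)) n
      rw [List.take_of_length_le (by simp), idl_top] at this
      rw [this]
      simpa using hI.symm⟩
  have hw : IsWeaklyRegular S ((List.ofFn f).take m) := by
    have := (isReg_iff f).mp hreg
    rw [← List.take_append_drop m (List.ofFn f), isWeaklyRegular_append_iff] at this
    exact this.1
  have hs := hom_subsingleton (ModuleCat.of S (S ⧸ I)) _ (ModuleCat.of S S) hw
    (fun j hj => hext j (by simp at hj ⊢; omega))
  rw [ofList_take] at hs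
  let φ : (S ⧸ I) →ₗ[S] (S ⧸ (idl f m • ⊤ : Submodule S S)) :=
    Submodule.liftQ I (LinearMap.toSpanSingleton S _ (Submodule.Quotient.mk g)) (by
      refine Ideal.span_le.mpr ?_
      rintro _ ⟨j, rfl⟩
      simp only [SetLike.mem_coe, LinearMap.mem_ker, LinearMap.toSpanSingleton_apply]
      rw [← Submodule.Quotient.mk_smul, Submodule.Quotient.mk_eq_zero]
      simpa using hg j)
  have h0 : φ = 0 := Subsingleton.elim (h := hs) _ _
  have : φ (Submodule.Quotient.mk 1) = 0 := by rw [h0]; rfl
  simp only [φ, Submodule.liftQ_apply, LinearMap.toSpanSingleton_apply, one_smul] at this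
  rw [Submodule.Quotient.mk_eq_zero] at this
  simpa using this

/-- linear substitution of variables -/
noncomputable def linSub {n m : ℕ} (lam : Fin n → Fin m → k) :
    MvPolynomial (Fin n) k →ₐ[k] MvPolynomial (Fin m) k :=
  aeval fun j => ∑ l, C (lam j l) * X l

lemma linSub_comp {n m p : ℕ} (l1 : Fin n → Fin m → k) (l2 : Fin m → Fin p → k)
    (g : MvPolynomial (Fin n) k) :
    linSub l2 (linSub l1 g) = linSub (fun j l => ∑ i, l1 j i * l2 i l) g := by
  have : (linSub l2).comp (linSub l1) = linSub (fun j l => ∑ i, l1 j i * l2 i l) := by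
    ext1 j
    simp only [linSub, AlgHom.comp_apply, aeval_X, map_sum, map_mul, aeval_C, Finset.mul_sum,
      Finset.sum_mul, algebraMap_eq, mul_assoc]
    exact Finset.sum_comm
  exact congr($this g)

lemma linSub_single (g : MvPolynomial (Fin n) k) :
    linSub (fun j => Pi.single j (1 : k)) g = g := by
  have : linSub (fun j : Fin n => Pi.single j (1 : k)) = AlgHom.id k _ := by
    ext1 j
    simp [linSub, Pi.single_apply, apply_ite C]
  rw [this]; rfl

lemma exists_regular_form [Infinite k] {f : Fin c → MvPolynomial (Fin (n + 1)) k} (hreg : IsReg f)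
    (hc : c ≤ n) : ∃ a : Fin (n + 1) → k, a (Fin.last n) ≠ 0 ∧
      ∀ m ≤ c, ∀ g, (∑ l, C (a l) * X l) * g ∈ idl f m → g ∈ idl f m := by
  let S := MvPolynomial (Fin (n + 1)) k
  let ψ : (Fin (n + 1) → k) →ₗ[k] S := Fintype.linearCombination k X
  have hψ : ∀ a, ψ a = ∑ l, C (a l) * X l := by
    intro a
    simp only [ψ, Fintype.linearCombination_apply]
    exact Finset.sum_congr rfl fun l _ => smul_eq_C_mul _ _
  let ι := Option (Σ m : Fin (c + 1), associatedPrimes S (S ⧸ idl f m))
  have : ∀ m : Fin (c + 1), Finite (associatedPrimes S (S ⧸ idl f m)) := fun m =>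
    (associatedPrimes.finite S (S ⧸ idl f m)).to_subtype
  let p : ι → Submodule k (Fin (n + 1) → k) := fun i =>
    match i with
    | none => LinearMap.ker (LinearMap.proj (Fin.last n))
    | some ⟨_, P⟩ => (P.1.restrictScalars k).comap ψ
  have hp : ∀ i, p i ≠ ⊤ := by
    rintro (_ | ⟨m, P, hP⟩) h
    · have : Pi.single (Fin.last n) (1 : k) ∈ p none := by rw [h]; trivial
      simp [p] at this
    · obtain ⟨hprime, x, hx⟩ := isAssociatedPrime_iff.mp hP
      obtain ⟨g, rfl⟩ := Ideal.Quotient.mk_surjective x
      have hg : g ∈ idl f m := by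
        apply socle_zero hreg (by omega)
        intro j
        have : Pi.single j (1 : k) ∈ p (some ⟨m, P, hP⟩) := by rw [h]; trivial
        simp only [p, Submodule.mem_comap, Submodule.restrictScalars_mem] at this
        rw [hx] at this
        simp only [ψ, Fintype.linearCombination_apply_single, one_smul,
          Submodule.mem_colon_singleton, Submodule.mem_bot] at this
        rw [← Ideal.Quotient.eq_zero_iff_mem]
        exact this
      apply hprime.ne_top
      rw [hx, Ideal.Quotient.eq_zero_iff_mem.mpr hg]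
      simp
  obtain ⟨a, ha⟩ := Submodule.exists_forall_notMem_of_forall_ne_top p hp
  refine ⟨a, by simpa [p] using ha none, fun m hm g hg => ?_⟩
  by_contra hne
  have : ψ a ∈ ⋃ P ∈ associatedPrimes S (S ⧸ idl f m), (P : Set S) := by
    rw [biUnion_associatedPrimes_eq_zero_divisors]
    refine ⟨Ideal.Quotient.mk _ g, by rwa [Ne, Ideal.Quotient.eq_zero_iff_mem], ?_⟩
    rw [hψ]
    exact Ideal.Quotient.eq_zero_iff_mem.mpr hg
  simp only [Set.mem_iUnion] at this
  obtain ⟨P, hP, hmem⟩ := this
  exact ha (some ⟨⟨m, by omega⟩, P, hP⟩) hmem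

lemma elim_step [Infinite k] {f : Fin c → MvPolynomial (Fin (n + 1)) k} (hreg : IsReg f)
    (hc : c ≤ n) : ∃ lam : Fin (n + 1) → Fin n → k,
      (∀ i : Fin n, lam i.castSucc = Pi.single i 1) ∧ IsReg fun i => linSub lam (f i) := by
  obtain ⟨a, ha, hl⟩ := exists_regular_form hreg hc
  set ℓ : MvPolynomial (Fin (n + 1)) k := ∑ l, C (a l) * X l with hℓ
  let lam : Fin (n + 1) → Fin n → k :=
    Fin.lastCases (fun l => -(a (Fin.last n))⁻¹ * a l.castSucc) (fun i => Pi.single i 1)
  have h1 : ∀ i : Fin n, lam i.castSucc = Pi.single i 1 := fun i => by simp [lam]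
  refine ⟨lam, h1, ?_⟩
  let π := linSub lam
  have hX : ∀ i : Fin n, π (X i.castSucc) = X i := by
    intro i
    simp [π, linSub, h1, Pi.single_apply, apply_ite C]
  have hL : π (X (Fin.last n)) = -C (a (Fin.last n))⁻¹ * ∑ l : Fin n, C (a l.castSucc) * X l := by
    simp [π, linSub, lam, Finset.mul_sum, mul_assoc]
  have hC : ∀ r, π (C r) = C r := fun r => by simp [π, linSub]
  have hinv : ∀ m, (C (a (Fin.last n))⁻¹ * C (a (Fin.last n)) : MvPolynomial (Fin m) k) = 1 := by
    intro m
    rw [← C_mul, inv_mul_cancel₀ ha, C_1]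
  have hsec : ∀ g, π (rename Fin.castSucc g) = g := by
    intro g
    have : π.comp (rename Fin.castSucc) = AlgHom.id k _ := by
      ext1 j; simp [hX]
    exact congr($this g)
  have hker : ∀ g, g - rename Fin.castSucc (π g) ∈ Ideal.span {ℓ} := by
    intro g
    induction g using MvPolynomial.induction_on with
    | C r => simp [π, linSub]
    | add p q hp hq =>
      have := add_mem hp hq
      convert this using 1
      simp only [map_add]; ring
    | mul_X p j hp =>
      have hj : X j - rename Fin.castSucc (π (X j)) ∈ Ideal.span {ℓ} := by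
        induction j using Fin.lastCases with
        | last =>
          refine Ideal.mem_span_singleton'.mpr ⟨C (a (Fin.last n))⁻¹, ?_⟩
          rw [hL, hℓ, Fin.sum_univ_castSucc]
          simp only [map_mul, map_neg, map_sum, rename_C, rename_X]
          linear_combination X (Fin.last n) * hinv (n + 1)
        | cast i => simp [hX]
      have := add_mem (Ideal.mul_mem_right (X j) _ hp)
        (Ideal.mul_mem_left _ (rename Fin.castSucc (π p)) hj)
      convert this using 1
      simp only [map_mul]; ring
  have hmap : ∀ m, idl (fun i => π (f i)) m = (idl f m).map π := by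
    intro m
    rw [idl, idl, Ideal.map_span, Set.image_image]
  have hsurj : Function.Surjective π := fun g => ⟨_, hsec g⟩
  intro i g' hg'
  obtain ⟨g, rfl⟩ := hsurj g'
  rw [hmap] at hg' ⊢
  obtain ⟨h, hh, hπ⟩ := (Ideal.mem_map_iff_of_surjective π hsurj).mp hg'
  have h2 := hker (f i * g - h)
  rw [map_sub, map_mul, ← hπ, sub_self, map_zero, sub_zero] at h2
  obtain ⟨y, hy⟩ := Ideal.mem_span_singleton'.mp h2
  have hy' : y ∈ idl f (i + 1) := by
    apply hl _ i.2
    exact (mem_idl_succ f i _).mpr ⟨-h, neg_mem hh, g, by linear_combination hy⟩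
  obtain ⟨h', hh', y', rfl⟩ := (mem_idl_succ f i _).mp hy'
  have h3 : g - ℓ * y' ∈ idl f i := by
    apply hreg i
    have : f i * (g - ℓ * y') = h + h' * ℓ := by linear_combination -hy
    rw [this]
    exact add_mem hh (Ideal.mul_mem_right _ _ hh')
  have h4 : π ℓ = 0 := by
    rw [hℓ, Fin.sum_univ_castSucc]
    simp only [map_add, map_sum, map_mul, hX, hC, hL]
    linear_combination -(∑ l : Fin n, C (a l.castSucc) * X l) * hinv n
  have := Ideal.mem_map_of_mem π h3
  simpa [h4] using this

lemma elim [Infinite k] (hc : c ≤ n) : ∀ {f : Fin c → MvPolynomial (Fin n) k}, IsReg f →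
    ∃ lam : Fin n → Fin c → k,
      (∀ i : Fin c, lam (Fin.castLE hc i) = Pi.single i 1) ∧ IsReg fun i => linSub lam (f i) := by
  induction n, hc using Nat.le_induction with
  | base =>
    intro f hf
    refine ⟨fun j => Pi.single j 1, fun i => rfl, ?_⟩
    simpa [linSub_single] using hf
  | succ n hc ih =>
    intro f hf
    obtain ⟨l1, h1, hr1⟩ := elim_step hf hc
    obtain ⟨l2, h2, hr2⟩ := ih hr1
    refine ⟨fun j l => ∑ i, l1 j i * l2 i l, fun i => ?_, ?_⟩
    · have : Fin.castLE (Nat.le_succ_of_le hc) i = (Fin.castLE hc i).castSucc := rfl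
      funext l
      rw [this]
      simp only [h1]
      simp [Pi.single_apply, h2]
    · simpa [linSub_comp] using hr2

end Vale.Agent.P200
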