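import Mathlib.Algebra.Polynomial.Module.Basic
import Mathlib.RingTheory.FiniteType
import Mathlib.RingTheory.Polynomial.Basic
import Mathlib.LinearAlgebra.FiniteDimensional.Lemmas
import Mathlib.Tactic

/-! Stable graded subfamilies of finitely generated graded families are finitely generated. -/

namespace Vale.Agent.P200

open Polynomial

section
variable {k : Type*} [Field k] {c : ℕ}

/-- eventually generated from lower degrees by the operators `τ` of degree `a` -/
def EvGen {X : Type*} [AddCommGroup X] [Module k X] (a : ℕ) (τ : Fin c → X → X)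
    (G : ℕ → Submodule k X) : Prop :=
  ∃ i0, ∀ i, i0 ≤ i → ∀ x ∈ G (i + a), ∃ y : Fin c → X, (∀ j, y j ∈ G i) ∧ x = ∑ j, τ j (y j)

lemma fg_abstract {O P X : Type*} [CommRing O] [Algebra k O] [AddCommGroup P] [Module O P]
    [Module k P] [IsScalarTower k O P] [AddCommGroup X] [Module k X] {a : ℕ} (ha : 0 < a)
    (s : ℕ → X →ₗ[k] P) (t : Fin c → O) (τ : Fin c → X → X)
    (hs : ∀ i j x, t j • s i x = s (i + a) (τ j x)) (G : ℕ → Submodule k X)
    (hfin : ∀ i, FiniteDimensional k (G i)) (hG : EvGen a τ G) :
    (Submodule.span O (⋃ i, s i '' G i)).FG := by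
  obtain ⟨i0, hG⟩ := hG
  let N : Submodule k P := ⨆ i ∈ Finset.range (i0 + a), (G i).map (s i)
  have hN : N.FG := Submodule.fg_biSup _ _ fun i _ =>
    (Module.Finite.iff_fg.mp (hfin i)).map _
  have e : Submodule.span O (⋃ i, s i '' G i) = Submodule.span O (N : Set P) := by
    apply le_antisymm
    · rw [Submodule.span_le]
      have key : ∀ i, ∀ x ∈ G i, s i x ∈ Submodule.span O (N : Set P) := by
        intro i
        induction i using Nat.strong_induction_on with
        | _ i ih =>
          intro x hx
          by_cases hi : i < i0 + a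
          · apply Submodule.subset_span
            exact Submodule.mem_iSup_of_mem i (Submodule.mem_iSup_of_mem (Finset.mem_range.mpr hi)
              ⟨x, hx, rfl⟩)
          · obtain ⟨i, rfl⟩ : ∃ i', i = i' + a := ⟨i - a, by omega⟩
            obtain ⟨y, hy, rfl⟩ := hG i (by omega) x hx
            rw [map_sum]
            refine Submodule.sum_mem _ fun j _ => ?_
            rw [← hs]
            exact Submodule.smul_mem _ _ (ih i (by omega) _ (hy j))
      intro p hp
      simp only [Set.mem_iUnion] at hp
      obtain ⟨i, x, hx, rfl⟩ := hp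
      exact key i x hx
    · rw [Submodule.span_le]
      have : N ≤ (Submodule.span O (⋃ i, s i '' G i)).restrictScalars k := by
        refine iSup₂_le fun i _ => ?_
        rintro _ ⟨x, hx, rfl⟩
        exact Submodule.subset_span (Set.mem_iUnion.mpr ⟨i, x, hx, rfl⟩)
      exact this
  rw [e]
  obtain ⟨T, hT⟩ := hN
  exact ⟨T, by rw [← hT, Submodule.span_span_of_tower]⟩

variable (k) in
/-- the polynomial ring in the elements `τ j * z ^ a` -/
noncomputable def reesRing {O : Type*} [CommRing O] [Algebra k O] (a : ℕ) (τ : Fin c → O) :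
    Subalgebra k O[X] := Algebra.adjoin k (Set.range fun j => monomial a (τ j))

instance reesNoeth {O : Type*} [CommRing O] [Algebra k O] (a : ℕ) (τ : Fin c → O) :
    IsNoetherianRing (reesRing k a τ) := by
  apply isNoetherianRing_of_fg
  rw [reesRing, Subalgebra.fg_def]
  exact ⟨_, Set.finite_range _, rfl⟩

/-- the generators of `reesRing` -/
noncomputable def reesGen {O : Type*} [CommRing O] [Algebra k O] (a : ℕ) (τ : Fin c → O)
    (j : Fin c) : reesRing k a τ := ⟨monomial a (τ j), Algebra.subset_adjoin ⟨j, rfl⟩⟩

lemma rees_decomp {O : Type*} [CommRing O] [Algebra k O] (a : ℕ) (τ : Fin c → O)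
    (o : reesRing k a τ) : ∃ (r : k) (y : Fin c → reesRing k a τ),
      o = algebraMap k _ r + ∑ j, reesGen a τ j * y j := by
  obtain ⟨o, ho⟩ := o
  induction ho using Algebra.adjoin_induction with
  | mem x hx =>
    obtain ⟨j, rfl⟩ := hx
    refine ⟨0, Pi.single j 1, ?_⟩
    simp [Pi.single_apply, reesGen]
  | algebraMap r => exact ⟨r, 0, by simp; rfl⟩
  | add x y hx hy ihx ihy =>
    obtain ⟨r, u, hu⟩ := ihx
    obtain ⟨r', u', hu'⟩ := ihy
    refine ⟨r + r', u + u', ?_⟩
    show (⟨x, hx⟩ : reesRing k a τ) + ⟨y, hy⟩ = _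
    rw [hu, hu']
    simp only [map_add, Pi.add_apply, mul_add, Finset.sum_add_distrib]
    ring
  | mul x y hx hy ihx ihy =>
    obtain ⟨r, u, hu⟩ := ihx
    obtain ⟨r', u', hu'⟩ := ihy
    refine ⟨r * r', fun j => u j * ⟨y, hy⟩ + algebraMap k _ r * u' j, ?_⟩
    show (⟨x, hx⟩ : reesRing k a τ) * ⟨y, hy⟩ = _
    rw [hu]
    simp only [map_mul, mul_add, Finset.sum_add_distrib, add_mul, Finset.sum_mul, mul_assoc]
    conv_lhs => enter [1]; rw [hu']
    simp only [mul_add, Finset.mul_sum, mul_left_comm]
    ring

theorem evGen_sub {O X : Type*} [CommRing O] [Algebra k O] [AddCommGroup X] [Module k X]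
    [Module O X] [IsScalarTower k O X] {a : ℕ} (ha : 0 < a) (τ : Fin c → O)
    (G Z : ℕ → Submodule k X) (hfin : ∀ i, FiniteDimensional k (G i))
    (hG : EvGen a (fun j x => τ j • x) G) (hZ : ∀ i, Z i ≤ G i)
    (hZt : ∀ i j, ∀ x ∈ Z i, τ j • x ∈ Z (i + a)) : EvGen a (fun j x => τ j • x) Z := by
  classical
  let 𝒪 := reesRing k a τ
  let s : ℕ → X →ₗ[k] (PolynomialModule O X) := fun i => (PolynomialModule.lsingle O i).restrictScalars k
  have hs : ∀ i j x, reesGen (k := k) a τ j • s i x = s (i + a) (τ j • x) := by
    intro i j x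
    show monomial a (τ j) • PolynomialModule.lsingle O i x = _
    rw [PolynomialModule.monomial_smul_lsingle, add_comm]; rfl
  have hfg := fg_abstract ha s (reesGen a τ) (fun j x => τ j • x) hs G hfin hG
  have hk : ∀ (r : k) (p : (PolynomialModule O X)) (i : ℕ), (r • p).coeff i = r • p.coeff i := fun r p i => rfl
  let RZ : Submodule 𝒪 (PolynomialModule O X) :=
    { carrier := {p | ∀ i, p.coeff i ∈ Z i}
      add_mem' := fun hp hq i => by simpa using add_mem (hp i) (hq i)
      zero_mem' := fun i => by simp
      smul_mem' := by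
        rintro ⟨o, ho⟩
        show ∀ p : (PolynomialModule O X), (∀ i, p.coeff i ∈ Z i) → ∀ i, (o • p).coeff i ∈ Z i
        induction ho using Algebra.adjoin_induction with
        | mem x hx =>
          obtain ⟨j, rfl⟩ := hx
          intro p hp i
          rw [PolynomialModule.monomial_smul_apply]
          split_ifs with h
          · have := hZt _ j _ (hp (i - a))
            rwa [Nat.sub_add_cancel h] at this
          · simp
        | algebraMap r =>
          intro p hp i
          rw [algebraMap_smul, hk]
          exact Submodule.smul_mem _ _ (hp i)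
        | add x y _ _ hx hy =>
          intro p hp i
          rw [add_smul]
          simpa using add_mem (hx p hp i) (hy p hp i)
        | mul x y _ _ hx hy =>
          intro p hp i
          rw [mul_smul]
          exact hx _ (hy p hp) i }
  have hle : RZ ≤ Submodule.span 𝒪 (⋃ i, s i '' G i) := by
    intro p hp
    have : p = ∑ i ∈ p.coeff.support, s i (p.coeff i) := by
      ext i
      simp [s, PolynomialModule.lsingle_apply, Finsupp.finsetSum_apply]
    rw [this]
    exact Submodule.sum_mem _ fun i _ =>
      Submodule.subset_span (Set.mem_iUnion.mpr ⟨i, _, hZ i (hp i), rfl⟩)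
  have hRZ : RZ.FG := by
    have := isNoetherian_of_fg_of_noetherian _ hfg
    exact Submodule.FG.of_le_of_isNoetherian hle
  obtain ⟨T, hT⟩ := hRZ
  refine ⟨(T.sup fun p => p.coeff.support.sup id) + 1, fun i hi x hx => ?_⟩
  have key : ∀ p ∈ Submodule.span 𝒪 (T : Set (PolynomialModule O X)), ∃ y : Fin c → X, (∀ j, y j ∈ Z i) ∧
      p.coeff (i + a) = ∑ j, τ j • y j := by
    intro p hp
    have hp' := hp
    rw [Submodule.mem_span_finset] at hp
    obtain ⟨o, -, rfl⟩ := hp
    choose r u hu using fun p => rees_decomp (k := k) a τ (o p)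
    refine ⟨fun j => (∑ p ∈ T, u p j • p).coeff i, fun j => ?_, ?_⟩
    · have : ∑ p ∈ T, u p j • p ∈ RZ :=
        Submodule.sum_mem _ fun p hp => Submodule.smul_mem _ _ (hT ▸ Submodule.subset_span hp)
      exact this i
    · have e : ∑ p ∈ T, o p • p =
          ∑ p ∈ T, r p • p + ∑ j, monomial a (τ j) • ∑ p ∈ T, u p j • p := by
        simp only [Finset.smul_sum]
        rw [Finset.sum_comm, ← Finset.sum_add_distrib]
        refine Finset.sum_congr rfl fun p _ => ?_
        rw [hu p, add_smul, algebraMap_smul, Finset.sum_smul]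
        simp only [mul_smul]
        rfl
      rw [e]
      simp only [PolynomialModule.coeff_add, PolynomialModule.coeff_sum, Finsupp.add_apply,
        Finsupp.finsetSum_apply, PolynomialModule.monomial_smul_apply, hk, le_add_iff_nonneg_left,
        zero_le, if_true, Nat.add_sub_cancel]
      rw [Finset.sum_eq_zero, zero_add]
      intro p hp
      have : p.coeff (i + a) = 0 := by
        by_contra hne
        have h1 : i + a ≤ p.coeff.support.sup id :=
          Finset.le_sup (f := id) (Finsupp.mem_support_iff.mpr hne)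
        have h2 : p.coeff.support.sup id ≤ T.sup fun p => p.coeff.support.sup id :=
          Finset.le_sup (f := fun p : (PolynomialModule O X) => p.coeff.support.sup id) hp
        omega
      rw [this, smul_zero]
  have hx' : s (i + a) x ∈ RZ := by
    intro i'
    simp only [s, LinearMap.restrictScalars_apply, PolynomialModule.lsingle_apply]
    split_ifs with h
    · exact h ▸ hx
    · simp
  obtain ⟨y, hy, e⟩ := key _ (hT ▸ hx')
  refine ⟨y, hy, ?_⟩
  rw [← e]
  simp [s, PolynomialModule.lsingle_apply]

end

end Vale.Agent.P200
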