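import Vale.Agent.P200.Reg
import Vale.Agent.P200.Noeth
import Vale.Agent.P200.Diff
import Mathlib.RingTheory.Flat.Basic
import Mathlib.LinearAlgebra.TensorProduct.RightExactness

/-! Euler characteristic of the complexes attached to graded Clifford modules. -/

namespace Vale.Agent.P200

open MvPolynomial Module TensorProduct

lemma finrank_map_add {k V V' : Type*} [Field k] [AddCommGroup V] [Module k V] [AddCommGroup V']
    [Module k V'] (φ : V →ₗ[k] V') (W : Submodule k V) [FiniteDimensional k W] :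
    finrank k (W.map φ) + finrank k (W ⊓ LinearMap.ker φ : Submodule k V) = finrank k W := by
  have := LinearMap.finrank_range_add_finrank_ker (φ.domRestrict W)
  rw [LinearMap.range_domRestrict, LinearMap.ker_domRestrict] at this
  rw [← this]
  congr 1
  rw [← Submodule.finrank_map_subtype_eq W, Submodule.map_comap_subtype]

section box
variable {k R T : Type*} [Field k] [AddCommGroup R] [Module k R] [AddCommGroup T] [Module k T]

/-- tensor product of subspaces as a subspace of the tensor product -/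
def box (L : Submodule k R) (V : Submodule k T) : Submodule k (R ⊗[k] T) :=
  LinearMap.range (TensorProduct.mapIncl L V)

lemma tmul_mem_box {L : Submodule k R} {V : Submodule k T} {x : R} {y : T} (hx : x ∈ L)
    (hy : y ∈ V) : x ⊗ₜ[k] y ∈ box L V := ⟨⟨x, hx⟩ ⊗ₜ ⟨y, hy⟩, rfl⟩

lemma box_induction {L : Submodule k R} {V : Submodule k T} {p : R ⊗[k] T → Prop} (h0 : p 0)
    (ht : ∀ x ∈ L, ∀ y ∈ V, p (x ⊗ₜ y)) (ha : ∀ x y, p x → p y → p (x + y))
    {w : R ⊗[k] T} (hw : w ∈ box L V) : p w := by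
  obtain ⟨w, rfl⟩ := hw
  induction w using TensorProduct.induction_on with
  | zero => simpa using h0
  | tmul x y => exact ht _ x.2 _ y.2
  | add x y hx hy => rw [map_add]; exact ha _ _ hx hy

lemma finrank_box (L : Submodule k R) (V : Submodule k T) :
    finrank k (box L V) = finrank k L * finrank k V := by
  rw [box, LinearMap.finrank_range_of_inj
    (Module.Flat.tensorProduct_mapIncl_injective_of_right L V), Module.finrank_tensorProduct]

instance boxFin (L : Submodule k R) (V : Submodule k T) [FiniteDimensional k L]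
    [FiniteDimensional k V] : FiniteDimensional k (box L V) := by
  rw [box]; infer_instance

lemma mem_box_top {L : Submodule k R} {w : R ⊗[k] T} :
    w ∈ box L (⊤ : Submodule k T) ↔ ∃ y : L ⊗[k] T, L.subtype.rTensor T y = w := by
  constructor
  · intro hw
    refine box_induction (p := fun w => ∃ y : L ⊗[k] T, L.subtype.rTensor T y = w)
      ⟨0, by simp⟩ (fun x hx y _ => ⟨⟨x, hx⟩ ⊗ₜ y, rfl⟩) ?_ hw
    rintro _ _ ⟨x, rfl⟩ ⟨y, rfl⟩
    exact ⟨x + y, by simp⟩
  · rintro ⟨y, rfl⟩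
    induction y using TensorProduct.induction_on with
    | zero => simp
    | tmul x y => exact tmul_mem_box x.2 trivial
    | add x y hx hy => rw [map_add]; exact add_mem hx hy

lemma box_mono {L L' : Submodule k R} {V V' : Submodule k T} (h : L ≤ L') (h' : V ≤ V') :
    box L V ≤ box L' V' := fun _ hw =>
  box_induction (p := fun w => w ∈ box L' V') (zero_mem _)
    (fun _ hx _ hy => tmul_mem_box (h hx) (h' hy)) (fun _ _ => add_mem) hw

end box

section euler
variable {k : Type*} [Field k] {c : ℕ} {O R : Type*} [CommRing O] [Algebra k O] [Ring R]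
  [Algebra k R] [Algebra O R] [IsScalarTower k O R] {T : Type*} [CommRing T] [Algebra k T]

/-- the linear form with coefficients `g` in a quotient of the polynomial ring -/
noncomputable def Mq (g : Fin c → R) (φ : MvPolynomial (Fin c) k →ₐ[k] T) : R ⊗[k] T :=
  ∑ m, g m ⊗ₜ φ (X m)

lemma Mq_mul_mem {g : Fin c → R} {φ : MvPolynomial (Fin c) k →ₐ[k] T} {L L' : Submodule k R}
    {V V' : Submodule k T} (hL : ∀ m, ∀ x ∈ L, g m * x ∈ L')
    (hV : ∀ m, ∀ y ∈ V, φ (X m) * y ∈ V') {w} (hw : w ∈ box L V) :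
    Mq g φ * w ∈ box L' V' := by
  refine box_induction (p := fun w => Mq g φ * w ∈ box L' V') (by simp) ?_ ?_ hw
  · intro x hx y hy
    simp only [Mq, Finset.sum_mul, Algebra.TensorProduct.tmul_mul_tmul]
    exact Submodule.sum_mem _ fun m _ => tmul_mem_box (hL m x hx) (hV m y hy)
  · intro x y hx hy
    rw [mul_add]; exact add_mem hx hy

omit [Algebra k O] [IsScalarTower k O R] in
lemma Mq_pow {τ : Fin c → O} {g : Fin c → R} {f : Fin c → MvPolynomial (Fin c) k} {a : ℕ}
    (hrel : (∑ m, g m ⊗ₜ[k] (X m : MvPolynomial (Fin c) k)) ^ a =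
      ∑ j, algebraMap O R (τ j) ⊗ₜ f j) (φ : MvPolynomial (Fin c) k →ₐ[k] T) :
    Mq g φ ^ a = ∑ j, algebraMap O R (τ j) ⊗ₜ φ (f j) := by
  have := congrArg (Algebra.TensorProduct.map (AlgHom.id k R) φ) hrel
  simpa [map_pow, map_sum, Mq] using this

lemma smul_eq_tmul_mul' (o : O) (w : R ⊗[k] T) :
    o • w = (algebraMap O R o ⊗ₜ[k] (1 : T)) * w := by
  induction w using TensorProduct.induction_on with
  | zero => simp
  | tmul x y => simp [Algebra.smul_def]
  | add x y hx hy => simp [mul_add, hx, hy]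

lemma lTensor_mulLeft (t : T) (w : R ⊗[k] T) :
    (LinearMap.mulLeft k t).lTensor R w = ((1 : R) ⊗ₜ[k] t) * w := by
  induction w using TensorProduct.induction_on with
  | zero => simp
  | tmul x y => simp
  | add x y hx hy => simp [mul_add, hx, hy]

lemma one_tmul_comm' (t : T) (w : R ⊗[k] T) :
    ((1 : R) ⊗ₜ[k] t) * w = w * ((1 : R) ⊗ₜ[k] t) := by
  induction w using TensorProduct.induction_on with
  | zero => simp
  | tmul x y => simp [mul_comm]
  | add x y hx hy => simp [mul_add, add_mul, hx, hy]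

lemma homotopy_aux {T' : Type*} [CommRing T'] [Algebra k T'] {t : O} {g : Fin c → R}
    (φ' : MvPolynomial (Fin c) k →ₐ[k] T') (π : T' →ₐ[k] T) (hπ : Function.Surjective π)
    (q : T') (hq : Function.Injective (LinearMap.mulLeft k q))
    (hex : Function.Exact (LinearMap.mulLeft k q) π.toLinearMap) {a b : ℕ}
    (h4 : Mq g φ' ^ (a + b) = algebraMap O R t ⊗ₜ q)
    (L : ℕ → Submodule k R) (hL : ∀ i m, ∀ x ∈ L i, g m * x ∈ L (i + 1)) {i : ℕ}
    {w} (hw : w ∈ box (L i) ⊤) (h0 : Mq g (π.comp φ') ^ b * w = 0) :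
    ∃ v ∈ box (L (i + b)) ⊤, t • w = Mq g (π.comp φ') ^ a * v := by
  let ρ := Algebra.TensorProduct.map (AlgHom.id k R) π
  have hρ : ∀ w, ρ w = π.toLinearMap.lTensor R w := fun w => rfl
  have hρM : ρ (Mq g φ') = Mq g (π.comp φ') := by
    simp only [Mq, map_sum]; rfl
  have hρb : ∀ (N : Submodule k R), ∀ w ∈ box N ⊤, ρ w ∈ box N ⊤ := by
    intro N w hw
    exact box_induction (p := fun w => ρ w ∈ box N ⊤) (by simp)
      (fun x hx y _ => tmul_mem_box hx trivial) (fun x y hx hy => by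
        rw [map_add]; exact add_mem hx hy) hw
  obtain ⟨w', hw', rfl⟩ : ∃ w' ∈ box (L i) ⊤, ρ w' = w := by
    refine box_induction (p := fun w => ∃ w' ∈ box (L i) ⊤, ρ w' = w) ⟨0, zero_mem _, by simp⟩
      ?_ ?_ hw
    · intro x hx y _
      obtain ⟨y, rfl⟩ := hπ y
      exact ⟨x ⊗ₜ y, tmul_mem_box hx trivial, rfl⟩
    · rintro _ _ ⟨x, hx, rfl⟩ ⟨y, hy, rfl⟩
      exact ⟨x + y, add_mem hx hy, by simp⟩
  have h1 : ∀ b, Mq g φ' ^ b * w' ∈ box (L (i + b)) ⊤ := by
    intro b
    induction b with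
    | zero => simpa using hw'
    | succ b ih =>
      rw [pow_succ', mul_assoc]
      exact Mq_mul_mem (hL _) (fun _ _ _ => Submodule.mem_top) ih
  obtain ⟨u, hu⟩ := mem_box_top.mp (h1 b)
  have h2 : π.toLinearMap.lTensor (L (i + b)) u = 0 := by
    apply Module.Flat.rTensor_preserves_injective_linearMap (L (i + b)).subtype
      (L (i + b)).injective_subtype
    rw [map_zero, ← LinearMap.comp_apply, LinearMap.rTensor_comp_lTensor,
      ← LinearMap.lTensor_comp_rTensor, LinearMap.comp_apply, hu, ← hρ, map_mul, map_pow, hρM, h0]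
  obtain ⟨u', hu'⟩ := (lTensor_exact (L (i + b)) hex hπ u).mp h2
  let v' := (L (i + b)).subtype.rTensor _ u'
  have h3 : Mq g φ' ^ b * w' = ((1 : R) ⊗ₜ[k] q) * v' := by
    rw [← hu, ← hu', ← lTensor_mulLeft, ← LinearMap.comp_apply, LinearMap.rTensor_comp_lTensor,
      ← LinearMap.lTensor_comp_rTensor, LinearMap.comp_apply]
  have h5 : t • w' = Mq g φ' ^ a * v' := by
    apply Module.Flat.lTensor_preserves_injective_linearMap (M := R) _ hq
    rw [lTensor_mulLeft, lTensor_mulLeft, smul_eq_tmul_mul', ← mul_assoc, ← mul_assoc,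
      one_tmul_comm' q (Mq g φ' ^ a), mul_assoc (Mq g φ' ^ a), ← h3, ← mul_assoc, ← pow_add, h4]
    simp
  refine ⟨ρ v', hρb _ _ (mem_box_top.mpr ⟨u', rfl⟩), ?_⟩
  rw [← hρM, ← map_pow, ← map_mul, ← h5, smul_eq_tmul_mul', smul_eq_tmul_mul', map_mul]
  simp [ρ]

/-- multiplication by a parameter is null-homotopic -/
lemma homotopy {τ : Fin c → O} {g : Fin c → R} {f : Fin c → MvPolynomial (Fin c) k}
    (hreg : IsReg f) (φ : MvPolynomial (Fin c) k →ₐ[k] T) (hφ : Function.Surjective φ)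
    (hker : ∀ s, φ s = 0 ↔ s ∈ Ideal.span (Set.range f)) {a b : ℕ}
    (hrel : (∑ m, g m ⊗ₜ[k] (X m : MvPolynomial (Fin c) k)) ^ (a + b) =
      ∑ j, algebraMap O R (τ j) ⊗ₜ f j)
    (L : ℕ → Submodule k R) (hL : ∀ i m, ∀ x ∈ L i, g m * x ∈ L (i + 1)) (j : Fin c) {i : ℕ}
    {w} (hw : w ∈ box (L i) ⊤) (h0 : Mq g φ ^ b * w = 0) :
    ∃ v ∈ box (L (i + b)) ⊤, τ j • w = Mq g φ ^ a * v := by
  have hle : idlx f j ≤ Ideal.span (Set.range f) :=
    Ideal.span_mono (Set.image_subset_range _ _)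
  let π : (MvPolynomial (Fin c) k ⧸ idlx f j) →ₐ[k] T :=
    Ideal.Quotient.liftₐ _ φ fun s hs => (hker s).mpr (hle hs)
  have hπ : Function.Surjective π := by
    intro y
    obtain ⟨s, rfl⟩ := hφ y
    exact ⟨Ideal.Quotient.mk _ s, rfl⟩
  let q := Ideal.Quotient.mk (idlx f j) (f j)
  have hq : Function.Injective (LinearMap.mulLeft k q) := by
    rw [injective_iff_map_eq_zero]
    intro y hy
    obtain ⟨s, rfl⟩ := Ideal.Quotient.mk_surjective y
    rw [Ideal.Quotient.eq_zero_iff_mem]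
    apply hreg.others
    rw [← Ideal.Quotient.eq_zero_iff_mem]
    exact hy
  have hex : Function.Exact (LinearMap.mulLeft k q) π.toLinearMap := by
    intro y
    obtain ⟨s, rfl⟩ := Ideal.Quotient.mk_surjective y
    constructor
    · intro h
      have h' : s ∈ Ideal.span (Set.range f) := (hker s).mp h
      obtain ⟨r, rfl⟩ := Ideal.mem_span_range_iff_exists_fun.mp h'
      refine ⟨Ideal.Quotient.mk _ (r j), ?_⟩
      rw [map_sum, Finset.sum_eq_single j]
      · simp [q, mul_comm]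
      · intro i _ hi
        rw [Ideal.Quotient.eq_zero_iff_mem]
        exact Ideal.mul_mem_left _ _ (Ideal.subset_span ⟨i, hi, rfl⟩)
      · simp
    · rintro ⟨y, hy⟩
      rw [← hy]
      have : π q = 0 := (hker _).mpr (Ideal.subset_span ⟨j, rfl⟩)
      simp [this]
  have h4 : Mq g (Ideal.Quotient.mkₐ k (idlx f j)) ^ (a + b) = algebraMap O R (τ j) ⊗ₜ q := by
    refine (Mq_pow hrel _).trans ((Finset.sum_eq_single j ?_ (by simp)).trans rfl)
    intro i _ hi
    have : f i ∈ idlx f j := Ideal.subset_span ⟨i, hi, rfl⟩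
    rw [Ideal.Quotient.mkₐ_eq_mk, Ideal.Quotient.eq_zero_iff_mem.mpr this, tmul_zero]
  have e : π.comp (Ideal.Quotient.mkₐ k (idlx f j)) = φ := by ext; rfl
  have := homotopy_aux (Ideal.Quotient.mkₐ k (idlx f j)) π hπ q hq hex h4 L hL hw (e.symm ▸ h0)
  rwa [e] at this

/-- graded pieces of a quotient ring -/
noncomputable def Aq (φ : MvPolynomial (Fin c) k →ₐ[k] T) (d : ℕ) : Submodule k T :=
  (homogeneousSubmodule (Fin c) k d).map φ.toLinearMap

instance AqFin (φ : MvPolynomial (Fin c) k →ₐ[k] T) (d : ℕ) : FiniteDimensional k (Aq φ d) := by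
  rw [Aq]; infer_instance

lemma finrank_Aq (φ : MvPolynomial (Fin c) k →ₐ[k] T) {𝔞 : Ideal (MvPolynomial (Fin c) k)}
    (hker : ∀ s, φ s = 0 ↔ s ∈ 𝔞) (d : ℕ) :
    finrank k (Aq φ d) + finrank k (ipart 𝔞 d) = c.multichoose d := by
  rw [← finrank_hom (k := k), ← finrank_map_add φ.toLinearMap (homogeneousSubmodule (Fin c) k d)]
  have : homogeneousSubmodule (Fin c) k d ⊓ LinearMap.ker φ.toLinearMap = ipart 𝔞 d := by
    ext x
    simp [hker, and_comm]
  rw [this]; rfl

lemma exists_proj (φ : MvPolynomial (Fin c) k →ₐ[k] T) (hφ : Function.Surjective φ)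
    (h𝔞 : ∀ s, φ s = 0 → ∀ d, φ (homogeneousComponent d s) = 0) (d : ℕ) :
    ∃ p : T →ₗ[k] T, ∀ s, p (φ s) = φ (homogeneousComponent d s) := by
  obtain ⟨σ, hσ⟩ := LinearMap.exists_rightInverse_of_surjective φ.toLinearMap
    (LinearMap.range_eq_top.mpr hφ)
  refine ⟨φ.toLinearMap ∘ₗ homogeneousComponent d ∘ₗ σ, fun s => ?_⟩
  simp only [LinearMap.comp_apply, AlgHom.toLinearMap_apply]
  rw [← sub_eq_zero, ← map_sub, ← map_sub]
  apply h𝔞
  rw [map_sub, sub_eq_zero]
  exact congr($hσ (φ s))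

lemma quot_finite (φ : MvPolynomial (Fin c) k →ₐ[k] T) (hφ : Function.Surjective φ) (N : ℕ)
    (hN : ∀ d, N ≤ d → finrank k (Aq φ d) = 0) :
    FiniteDimensional k (⊤ : Submodule k T) := by
  have : (⊤ : Submodule k T) ≤ (Finset.range N).sup (Aq φ) := by
    intro y _
    obtain ⟨s, rfl⟩ := hφ y
    rw [← sum_homogeneousComponent s, map_sum]
    refine Submodule.sum_mem _ fun d _ => ?_
    have hm : φ (homogeneousComponent d s) ∈ Aq φ d :=
      ⟨_, homogeneousComponent_mem _ _, rfl⟩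
    by_cases hd : d < N
    · exact Finset.le_sup (f := Aq φ) (Finset.mem_range.mpr hd) hm
    · rw [Submodule.finrank_eq_zero.mp (hN d (by omega))] at hm
      rw [(Submodule.mem_bot k).mp hm]
      exact zero_mem _
  exact Submodule.finiteDimensional_of_le this

lemma evGen_box {a : ℕ} (τ : Fin c → O)
    (G : ℕ → Submodule k R) (V : Submodule k T) (hG : EvGen a (fun j x => τ j • x) G) :
    EvGen a (fun j x => τ j • x) (fun i => box (G i) V) := by
  obtain ⟨i0, hG⟩ := hG
  refine ⟨i0, fun i hi w hw => ?_⟩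
  refine box_induction (p := fun w => ∃ y : Fin c → R ⊗[k] T, (∀ j, y j ∈ box (G i) V) ∧
    w = ∑ j, τ j • y j) ⟨0, by simp, by simp⟩ ?_ ?_ hw
  · intro x hx y hy
    obtain ⟨z, hz, rfl⟩ := hG i hi x hx
    exact ⟨fun j => z j ⊗ₜ y, fun j => tmul_mem_box (hz j) hy, by simp [sum_tmul, smul_tmul']⟩
  · rintro _ _ ⟨x, hx, rfl⟩ ⟨y, hy, rfl⟩
    exact ⟨x + y, fun j => add_mem (hx j) (hy j), by simp [Finset.sum_add_distrib]⟩

/-- eventual exactness, ungraded version -/
lemma ev_exact {τ : Fin c → O} {g : Fin c → R} {f : Fin c → MvPolynomial (Fin c) k}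
    (hreg : IsReg f) (φ : MvPolynomial (Fin c) k →ₐ[k] T) (hφ : Function.Surjective φ)
    (hker : ∀ s, φ s = 0 ↔ s ∈ Ideal.span (Set.range f)) {a b : ℕ} (hab : 0 < a + b)
    (hfinA : FiniteDimensional k (⊤ : Submodule k T))
    (hrel : (∑ m, g m ⊗ₜ[k] (X m : MvPolynomial (Fin c) k)) ^ (a + b) =
      ∑ j, algebraMap O R (τ j) ⊗ₜ f j)
    (G L : ℕ → Submodule k R) (hfin : ∀ i, FiniteDimensional k (G i))
    (hG : EvGen (a + b) (fun j x => τ j • x) G) (hLG : ∀ i, L i ≤ G i)
    (hL : ∀ i m, ∀ x ∈ L i, g m * x ∈ L (i + 1))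
    (hLt : ∀ i j, ∀ x ∈ L i, τ j • x ∈ L (i + (a + b))) :
    ∃ i0, ∀ i, i0 ≤ i → ∀ w ∈ box (L (i + a)) ⊤, Mq g φ ^ b * w = 0 →
      ∃ v ∈ box (L i) ⊤, w = Mq g φ ^ a * v := by
  obtain ⟨i0, h⟩ := evGen_sub hab τ (fun i => box (G i) (⊤ : Submodule k T))
    (fun i => box (L i) ⊤ ⊓ LinearMap.ker (LinearMap.mulLeft k (Mq g φ ^ b)))
    (fun i => inferInstance)
    (evGen_box τ G ⊤ hG) (fun i => inf_le_left.trans (box_mono (hLG i) le_rfl)) (by
      rintro i j w ⟨hw, hw0⟩
      constructor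
      · exact box_induction (p := fun w => τ j • w ∈ box (L (i + (a + b))) ⊤) (by simp)
          (fun x hx y _ => by rw [smul_tmul']; exact tmul_mem_box (hLt i j x hx) trivial)
          (fun x y hx hy => by rw [smul_add]; exact add_mem hx hy) hw
      · have : Mq g φ ^ b * w = 0 := hw0
        show Mq g φ ^ b * (τ j • w) = 0
        rw [mul_smul_comm, this, smul_zero])
  refine ⟨i0 + b, fun i hi w hw hw0 => ?_⟩
  obtain ⟨i, rfl⟩ : ∃ i', i = i' + b := ⟨i - b, by omega⟩
  obtain ⟨y, hy, rfl⟩ := h i (by omega) w ⟨by rwa [show i + (a + b) = i + b + a by ring], hw0⟩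
  choose v hv hv' using fun j => homotopy hreg φ hφ hker hrel L hL j (hy j).1 (hy j).2
  exact ⟨∑ j, v j, Submodule.sum_mem _ fun j _ => hv j, by simp [Finset.mul_sum, hv']⟩

lemma proj_facts (g : Fin c → R) (φ : MvPolynomial (Fin c) k →ₐ[k] T)
    (hφ : Function.Surjective φ)
    (h𝔞 : ∀ s, φ s = 0 → ∀ d, φ (homogeneousComponent d s) = 0) :
    ∃ P : ℕ → R ⊗[k] T →ₗ[k] R ⊗[k] T,
      (∀ d (N : Submodule k R), ∀ w ∈ box N ⊤, P d w ∈ box N (Aq φ d)) ∧
      (∀ d (N : Submodule k R), ∀ w ∈ box N (Aq φ d), P d w = w) ∧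
      (∀ d w, P (d + 1) (Mq g φ * w) = Mq g φ * P d w) ∧ (∀ w, P 0 (Mq g φ * w) = 0) := by
  choose p hp using exists_proj φ hφ h𝔞
  refine ⟨fun d => (p d).lTensor R, ?_, ?_, ?_, ?_⟩
  · intro d N w hw
    refine box_induction (p := fun w => (p d).lTensor R w ∈ box N (Aq φ d)) (by simp) ?_
      (fun x y hx hy => by rw [map_add]; exact add_mem hx hy) hw
    intro x hx y _
    obtain ⟨s, rfl⟩ := hφ y
    rw [LinearMap.lTensor_tmul, hp]
    exact tmul_mem_box hx ⟨_, homogeneousComponent_mem _ _, rfl⟩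
  · intro d N w hw
    refine box_induction (p := fun w => (p d).lTensor R w = w) (by simp) ?_
      (fun x y hx hy => by rw [map_add, hx, hy]) hw
    rintro x _ _ ⟨s, hs, rfl⟩
    simp only [AlgHom.toLinearMap_apply, LinearMap.lTensor_tmul, hp]
    rw [homogeneousComponent_eq_self hs]
  · intro d w
    induction w using TensorProduct.induction_on with
    | zero => simp
    | add x y hx hy => simp only [mul_add, map_add, hx, hy]
    | tmul x y =>
      obtain ⟨s, rfl⟩ := hφ y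
      simp only [Mq, Finset.sum_mul, Algebra.TensorProduct.tmul_mul_tmul, map_sum,
        LinearMap.lTensor_tmul, ← map_mul, hp, comp_mul_hom (isHomogeneous_X k _)]
      simp
  · intro w
    induction w using TensorProduct.induction_on with
    | zero => simp
    | add x y hx hy => simp only [mul_add, map_add, hx, hy, add_zero]
    | tmul x y =>
      obtain ⟨s, rfl⟩ := hφ y
      simp only [Mq, Finset.sum_mul, Algebra.TensorProduct.tmul_mul_tmul, map_sum,
        LinearMap.lTensor_tmul, ← map_mul, hp, comp_mul_hom (isHomogeneous_X k _)]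
      simp

theorem euler_aux {τ : Fin c → O} {g : Fin c → R} {f : Fin c → MvPolynomial (Fin c) k}
    (hf : ∀ i, (f i).IsHomogeneous 2) (hreg : IsReg f)
    (φ : MvPolynomial (Fin c) k →ₐ[k] T) (hφ : Function.Surjective φ)
    (hker : ∀ s, φ s = 0 ↔ s ∈ Ideal.span (Set.range f))
    (hrel : (∑ m, g m ⊗ₜ[k] (X m : MvPolynomial (Fin c) k)) ^ 2 =
      ∑ j, algebraMap O R (τ j) ⊗ₜ f j)
    (G L : ℕ → Submodule k R) (hfin : ∀ i, FiniteDimensional k (G i))
    (hG : EvGen 2 (fun j x => τ j • x) G) (hLG : ∀ i, L i ≤ G i)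
    (hL : ∀ i m, ∀ x ∈ L i, g m * x ∈ L (i + 1))
    (hLt : ∀ i j, ∀ x ∈ L i, τ j • x ∈ L (i + 2)) :
    EvC ((dd 1)^[c] fun i => (finrank k (L i) : ℤ)) 0 := by
  have hA : ∀ d, finrank k (Aq φ d) = c.choose d := by
    intro d
    have h1 := finrank_Aq φ hker d
    have h2 := hilbert_quadrics hf hreg d
    omega
  have hfinA := quot_finite φ hφ (c + 1) fun d hd => by
    rw [hA, Nat.choose_eq_zero_of_lt (by omega)]
  obtain ⟨i0, hex⟩ := ev_exact (a := 1) (b := 1) hreg φ hφ hker (by norm_num) hfinA hrel G L hfin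
    hG hLG hL hLt
  simp only [pow_one] at hex
  obtain ⟨P, P1, P2, P3, P4⟩ := proj_facts g φ hφ fun s hs d => (hker _).mpr
    (comp_mem_span (by rintro _ ⟨j, rfl⟩; exact ⟨2, hf j⟩) ((hker _).mp hs) d)
  have hfinL : ∀ i, FiniteDimensional k (L i) := fun i =>
    Submodule.finiteDimensional_of_le (hLG i)
  let ψ := LinearMap.mulLeft k (Mq g φ)
  let ρ : ℕ → ℕ → ℕ := fun i j => finrank k ((box (L i) (Aq φ j)).map ψ)
  have e0 : ∀ i, i0 ≤ i → finrank k (L (i + 1)) * c.choose 0 = ρ (i + 1) 0 := by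
    intro i hi
    have := finrank_map_add ψ (box (L (i + 1)) (Aq φ 0))
    have h0 : box (L (i + 1)) (Aq φ 0) ⊓ LinearMap.ker ψ = ⊥ := by
      rw [eq_bot_iff]
      rintro w ⟨hw, hw0⟩
      obtain ⟨v, _, rfl⟩ := hex i hi w (box_mono le_rfl le_top hw) hw0
      rw [← P2 _ _ _ hw, P4]
      exact zero_mem _
    rw [h0, finrank_bot, finrank_box, hA] at this
    exact this.symm
  have e1 : ∀ i j, i0 ≤ i →
      finrank k (L (i + 1)) * c.choose (j + 1) = ρ (i + 1) (j + 1) + ρ i j := by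
    intro i j hi
    have := finrank_map_add ψ (box (L (i + 1)) (Aq φ (j + 1)))
    have h0 : box (L (i + 1)) (Aq φ (j + 1)) ⊓ LinearMap.ker ψ = (box (L i) (Aq φ j)).map ψ := by
      apply le_antisymm
      · rintro w ⟨hw, hw0⟩
        obtain ⟨v, hv, rfl⟩ := hex i hi w (box_mono le_rfl le_top hw) hw0
        refine ⟨P j v, P1 _ _ _ hv, ?_⟩
        rw [← P2 _ _ _ hw, P3]; rfl
      · rintro _ ⟨v, hv, rfl⟩
        refine ⟨Mq_mul_mem (hL i) ?_ hv, ?_⟩
        · rintro m _ ⟨s, hs, rfl⟩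
          refine ⟨X m * s, ?_, by simp⟩
          have := (isHomogeneous_X k m).mul hs
          rwa [add_comm] at this
        · show Mq g φ * (Mq g φ * v) = 0
          rw [← mul_assoc, ← pow_two, Mq_pow hrel, Finset.sum_eq_zero, zero_mul]
          intro j _
          rw [(hker _).mpr (Ideal.subset_span ⟨j, rfl⟩), tmul_zero]
    rw [h0, finrank_box, hA] at this
    exact this.symm
  refine ⟨i0 + 1, fun i hi => ?_⟩
  obtain ⟨i, rfl⟩ : ∃ i', i = i' + 1 := ⟨i - 1, by omega⟩
  have key : ∀ m, ∑ j ∈ Finset.range (m + 1),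
      (-1) ^ (m - j) * (c.choose j : ℤ) * (finrank k (L (i + 1 + j)) : ℤ) = ρ (i + 1 + m) m := by
    intro m
    induction m with
    | zero =>
      have := e0 i (by omega)
      simp at this ⊢
      exact_mod_cast this
    | succ m ih =>
      rw [Finset.sum_range_succ]
      have h1 := e1 (i + 1 + m) m (by omega)
      have h2 : ∑ j ∈ Finset.range (m + 1),
          (-1) ^ (m + 1 - j) * (c.choose j : ℤ) * (finrank k (L (i + 1 + j)) : ℤ) =
          -∑ j ∈ Finset.range (m + 1),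
          (-1) ^ (m - j) * (c.choose j : ℤ) * (finrank k (L (i + 1 + j)) : ℤ) := by
        rw [← Finset.sum_neg_distrib]
        refine Finset.sum_congr rfl fun j hj => ?_
        rw [show m + 1 - j = m - j + 1 by have := Finset.mem_range.mp hj; omega]
        ring
      rw [h2, ih, ← add_assoc (i + 1)]
      simp only [Nat.sub_self, pow_zero, one_mul]
      have h3 : ((finrank k (L (i + 1 + m + 1)) * c.choose (m + 1) : ℕ) : ℤ) =
        (ρ (i + 1 + m + 1) (m + 1) + ρ (i + 1 + m) m : ℕ) := by rw [h1]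
      push_cast at h3
      linarith
  rw [dd_iter_eq_sum, key]
  have := e1 (i + 1 + c) c (by omega)
  rw [Nat.choose_eq_zero_of_lt (by omega)] at this
  omega

theorem euler {τ : Fin c → O} {g : Fin c → R} {f : Fin c → MvPolynomial (Fin c) k}
    (hf : ∀ i, (f i).IsHomogeneous 2) (hreg : IsReg f)
    (hrel : (∑ m, g m ⊗ₜ[k] (X m : MvPolynomial (Fin c) k)) ^ 2 =
      ∑ j, algebraMap O R (τ j) ⊗ₜ f j)
    (G L : ℕ → Submodule k R) (hfin : ∀ i, FiniteDimensional k (G i))
    (hG : EvGen 2 (fun j x => τ j • x) G) (hLG : ∀ i, L i ≤ G i)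
    (hL : ∀ i m, ∀ x ∈ L i, g m * x ∈ L (i + 1))
    (hLt : ∀ i j, ∀ x ∈ L i, τ j • x ∈ L (i + 2)) :
    EvC ((dd 1)^[c] fun i => (finrank k (L i) : ℤ)) 0 :=
  euler_aux hf hreg (Ideal.Quotient.mkₐ k (Ideal.span (Set.range f)))
    (Ideal.Quotient.mkₐ_surjective k _) (fun _ => Ideal.Quotient.eq_zero_iff_mem) hrel G L hfin hG
    hLG hL hLt

end euler

end Vale.Agent.P200
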