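import Vale.Agent.P200.Reg
import Mathlib.Data.Finsupp.MonomialOrder
import Mathlib.Data.Finset.NoncommProd
import Mathlib.RingTheory.TensorProduct.Basic
import Mathlib.RingTheory.Flat.Basic
import Mathlib.LinearAlgebra.Dimension.OrzechProperty

/-! Initial ideals with respect to commuting linear forms over a division ring. -/

namespace Vale.Agent.P200

open MvPolynomial Module TensorProduct

lemma card_lead {D α Γ : Type*} [DivisionRing D] [LinearOrder Γ] (κ : α → Γ)
    (hκ : Function.Injective κ) (W : Submodule D (α →₀ D)) [FiniteDimensional D W]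
    (T : Finset α) (hT : ∀ a, a ∈ T ↔ ∃ w ∈ W, w a ≠ 0 ∧ ∀ b ∈ w.support, κ a ≤ κ b) :
    T.card = finrank D W := by
  classical
  apply le_antisymm
  · choose w hw hw0 hwm using fun a : T => (hT a).mp a.2
    have hli : LinearIndependent D fun a : T => (⟨w a, hw a⟩ : W) := by
      rw [Fintype.linearIndependent_iff (R := D) (M := W)]
      intro g hg
      by_contra hne
      push Not at hne
      have hne' : (Finset.univ.filter fun a : T => g a ≠ 0).Nonempty := by
        obtain ⟨a, ha⟩ := hne
        exact ⟨a, by simpa using ha⟩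
      obtain ⟨a, ha, hmin⟩ := Finset.exists_min_image _ (fun a : T => κ a) hne'
      have h1 : (∑ b : T, g b • w b) a = 0 := by
        have := congrArg (fun x : W => (x : α →₀ D) a) hg
        simpa using this
      rw [Finsupp.finsetSum_apply, Finset.sum_eq_single a] at h1
      · simp only [Finsupp.smul_apply, smul_eq_mul, mul_eq_zero] at h1
        rcases h1 with h | h
        · simp [h] at ha
        · exact hw0 a h
      · intro b _ hb
        simp only [Finsupp.smul_apply, smul_eq_mul, mul_eq_zero]
        by_contra hc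
        push Not at hc
        have h2 := hmin b (by simpa using hc.1)
        have h3 := hwm b a (Finsupp.mem_support_iff.mpr hc.2)
        exact hb (Subtype.ext (hκ (le_antisymm h3 h2)))
      · simp
    simpa using hli.fintype_card_le_finrank
  · let φ : W →ₗ[D] (T → D) := LinearMap.pi fun a => (Finsupp.lapply (a : α)).comp W.subtype
    have hφ : Function.Injective φ := by
      rw [injective_iff_map_eq_zero]
      intro w hw
      by_contra hne
      have hne' : (w : α →₀ D).support.Nonempty := by
        rw [Finsupp.support_nonempty_iff]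
        intro h; exact hne (by simpa using h)
      obtain ⟨a, ha, hmin⟩ := Finset.exists_min_image _ κ hne'
      have haT : a ∈ T := (hT a).mpr ⟨w, w.2, Finsupp.mem_support_iff.mp ha, hmin⟩
      have := congrFun hw ⟨a, haT⟩
      exact Finsupp.mem_support_iff.mp ha (by simpa [φ] using this)
    simpa using LinearMap.finrank_le_finrank_of_injective hφ

section mono
variable {B : Type*} [Monoid B] {n : ℕ} (M : Fin n → B) (hM : ∀ i j, Commute (M i) (M j))

include hM in
lemma mono_aux (β : Fin n →₀ ℕ) : ((Finset.univ : Finset (Fin n)) : Set (Fin n)).Pairwise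
    (Function.onFun Commute fun i => M i ^ β i) := fun i _ j _ _ => (hM i j).pow_pow _ _

/-- monomials in commuting elements -/
def mono (β : Fin n →₀ ℕ) : B :=
  Finset.univ.noncommProd (fun i => M i ^ β i) (mono_aux M hM β)

lemma mono_zero : mono M hM 0 = 1 := by
  unfold mono
  rw [Finset.noncommProd_eq_pow_card _ _ _ 1 (by simp), one_pow]

lemma mono_add (β γ : Fin n →₀ ℕ) : mono M hM (β + γ) = mono M hM β * mono M hM γ := by
  unfold mono
  rw [← Finset.noncommProd_mul_distrib _ _ _ _ (fun i _ j _ _ => (hM i j).pow_pow _ _)]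
  apply Finset.noncommProd_congr rfl
  intro i _
  simp [pow_add]

lemma mono_single (i : Fin n) (a : ℕ) : mono M hM (Finsupp.single i a) = M i ^ a := by
  unfold mono
  rw [← Finset.mul_noncommProd_erase _ (Finset.mem_univ i) _ _
    ((mono_aux M hM _).mono (by simp)), Finset.noncommProd_eq_pow_card _ _ _ 1, one_pow]
  · simp
  · intro j hj
    rw [Finsupp.single_eq_of_ne (Finset.ne_of_mem_erase hj), pow_zero]

end mono

section frame
variable {K D : Type*} [Field K] [DivisionRing D] [Algebra K D] {n : ℕ}

lemma smul_eq_tmul_mul {S : Type*} [Ring S] [Algebra K S] (d : D) (b : D ⊗[K] S) :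
    d • b = (d ⊗ₜ[K] (1 : S)) * b := by
  induction b using TensorProduct.induction_on with
  | zero => simp
  | tmul x y => simp [smul_tmul']
  | add x y hx hy => simp [mul_add, hx, hy]

lemma one_tmul_comm {S : Type*} [CommRing S] [Algebra K S] (s : S) (b : D ⊗[K] S) :
    ((1 : D) ⊗ₜ[K] s) * b = b * ((1 : D) ⊗ₜ[K] s) := by
  induction b using TensorProduct.induction_on with
  | zero => simp
  | tmul x y => simp [mul_comm]
  | add x y hx hy => simp [mul_add, add_mul, hx, hy]

lemma finrank_bc {V : Type*} [AddCommGroup V] [Module K V] (p : Submodule K V) :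
    finrank D (p.baseChange D) = finrank K p := by
  have hinj : Function.Injective (p.subtype.baseChange D) :=
    Module.Flat.lTensor_preserves_injective_linearMap (M := D) p.subtype p.injective_subtype
  rw [Submodule.baseChange, LinearMap.finrank_range_of_inj hinj, Module.finrank_baseChange]

instance bcFin {V : Type*} [AddCommGroup V] [Module K V] (p : Submodule K V)
    [FiniteDimensional K p] : FiniteDimensional D (p.baseChange D) := by
  rw [Submodule.baseChange]
  infer_instance

lemma bc_mul {S : Type*} [Ring S] [Algebra K S] {p q r : Submodule K S}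
    (h : ∀ x ∈ p, ∀ y ∈ q, x * y ∈ r) {x y : D ⊗[K] S} (hx : x ∈ p.baseChange D)
    (hy : y ∈ q.baseChange D) : x * y ∈ r.baseChange D := by
  obtain ⟨x, rfl⟩ := hx
  obtain ⟨y, rfl⟩ := hy
  induction x using TensorProduct.induction_on with
  | zero => simp
  | add x x' hx hx' => rw [map_add, add_mul]; exact add_mem hx hx'
  | tmul d s =>
    induction y using TensorProduct.induction_on with
    | zero => simp
    | add y y' hy hy' => rw [map_add, mul_add]; exact add_mem hy hy'
    | tmul e t =>
      simp only [LinearMap.baseChange_tmul, Algebra.TensorProduct.tmul_mul_tmul]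
      exact Submodule.tmul_mem_baseChange_of_mem _ (h _ s.2 _ t.2)

/-- degree `d` part of the polynomial ring over `D` -/
noncomputable abbrev Bd (K D : Type*) [Field K] [DivisionRing D] [Algebra K D] (n d : ℕ) :
    Submodule D (D ⊗[K] MvPolynomial (Fin n) K) :=
  (homogeneousSubmodule (Fin n) K d).baseChange D

variable (M : Fin n → D ⊗[K] MvPolynomial (Fin n) K) (hM : ∀ i j, Commute (M i) (M j))

lemma mono_mem (h1 : ∀ i, M i ∈ Bd K D n 1) (β : Fin n →₀ ℕ) :
    mono M hM β ∈ Bd K D n β.degree := by
  induction β using Finsupp.induction_linear with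
  | zero =>
    rw [mono_zero]
    exact Submodule.tmul_mem_baseChange_of_mem _ (isHomogeneous_one _ _)
  | add β γ hβ hγ =>
    rw [mono_add, map_add]
    exact bc_mul (fun x hx y hy => IsHomogeneous.mul hx hy) hβ hγ
  | single i a =>
    rw [mono_single, Finsupp.degree_single]
    induction a with
    | zero => exact Submodule.tmul_mem_baseChange_of_mem _ (isHomogeneous_one _ _)
    | succ a ih =>
      rw [pow_succ]
      exact bc_mul (fun x hx y hy => IsHomogeneous.mul hx hy) ih (h1 i)

lemma Bd_le_span (hs : ∀ k, (1 : D) ⊗ₜ[K] (X k : MvPolynomial (Fin n) K) ∈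
      Submodule.span D (Set.range M)) (d : ℕ) :
    Bd K D n d ≤ Submodule.span D (mono M hM '' (expo n d : Set (Fin n →₀ ℕ))) := by
  have key : ∀ d (u : Fin n →₀ ℕ), u.degree = d →
      (1 : D) ⊗ₜ[K] (monomial u 1 : MvPolynomial (Fin n) K) ∈
        Submodule.span D (mono M hM '' (expo n d : Set (Fin n →₀ ℕ))) := by
    intro d
    induction d with
    | zero =>
      intro u hu
      rw [Finsupp.degree_eq_zero_iff] at hu
      subst hu
      exact Submodule.subset_span ⟨0, by simp [mem_expo], by rw [mono_zero]; rfl⟩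
    | succ d ih =>
      intro u hu
      have hne : u ≠ 0 := by rintro rfl; simp at hu
      obtain ⟨k, hk⟩ := Finsupp.support_nonempty_iff.mpr hne
      obtain ⟨v, rfl⟩ : ∃ v, u = Finsupp.single k 1 + v := by
        refine ⟨u - Finsupp.single k 1, (add_tsub_cancel_of_le ?_).symm⟩
        rw [Finsupp.single_le_iff]
        exact Nat.one_le_iff_ne_zero.mpr (Finsupp.mem_support_iff.mp hk)
      have hv : v.degree = d := by
        rw [map_add, Finsupp.degree_single] at hu; omega
      have e : (1 : D) ⊗ₜ[K] (monomial (Finsupp.single k 1 + v) 1 : MvPolynomial (Fin n) K) =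
          ((1 : D) ⊗ₜ[K] X k) * ((1 : D) ⊗ₜ[K] (monomial v 1 : MvPolynomial (Fin n) K)) := by
        simp [monomial_single_add]
      rw [e]
      have h := ih v hv
      generalize (1 : D) ⊗ₜ[K] (monomial v 1 : MvPolynomial (Fin n) K) = y at h
      induction h using Submodule.span_induction with
      | zero => simp
      | add x y _ _ hx hy => rw [mul_add]; exact add_mem hx hy
      | smul a x _ hx =>
        rw [one_tmul_comm, smul_eq_tmul_mul, mul_assoc, ← smul_eq_tmul_mul, ← one_tmul_comm]
        exact Submodule.smul_mem _ _ hx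
      | mem x hx =>
        obtain ⟨β, hβ, rfl⟩ := hx
        have h := hs k
        generalize (1 : D) ⊗ₜ[K] (X k : MvPolynomial (Fin n) K) = y at h
        induction h using Submodule.span_induction with
        | zero => simp
        | add x y _ _ hx hy => rw [add_mul]; exact add_mem hx hy
        | smul a x _ hx =>
          rw [smul_eq_tmul_mul, mul_assoc, ← smul_eq_tmul_mul]
          exact Submodule.smul_mem _ _ hx
        | mem x hx =>
          obtain ⟨i, rfl⟩ := hx
          refine Submodule.subset_span ⟨Finsupp.single i 1 + β, ?_, ?_⟩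
          · rw [Finset.mem_coe, mem_expo] at hβ ⊢
            rw [map_add, Finsupp.degree_single, hβ, add_comm]
          · rw [mono_add, mono_single, pow_one]
  rw [Bd, Submodule.baseChange_eq_span, Submodule.span_le]
  rintro _ ⟨g, hg, rfl⟩
  rw [g.as_sum, map_sum]
  refine Submodule.sum_mem _ fun u hu => ?_
  have : monomial u (coeff u g) = coeff u g • (monomial u 1 : MvPolynomial (Fin n) K) := by
    simp [smul_monomial]
  rw [this, map_smul]
  exact Submodule.smul_of_tower_mem _ _ (key d u (mem_expo.mp (mem_hom_iff.mp hg u hu)))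

lemma lc_shift (i : Fin n) (w : (Fin n →₀ ℕ) →₀ D) :
    Finsupp.linearCombination D (mono M hM) (w.mapDomain (· + Finsupp.single i 1)) =
      Finsupp.linearCombination D (mono M hM) w * M i := by
  induction w using Finsupp.induction_linear with
  | zero => simp
  | add a b ha hb => rw [Finsupp.mapDomain_add, map_add, map_add, ha, hb, add_mul]
  | single β d =>
    simp only [Finsupp.mapDomain_single, Finsupp.linearCombination_single, mono_add, mono_single,
      pow_one]
    rw [smul_eq_tmul_mul, smul_eq_tmul_mul, mul_assoc]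

include hM in
theorem frame (I : Ideal (MvPolynomial (Fin n) K)) (h1 : ∀ i, M i ∈ Bd K D n 1)
    (hs : ∀ k, (1 : D) ⊗ₜ[K] (X k : MvPolynomial (Fin n) K) ∈ Submodule.span D (Set.range M))
    (c : ℕ) (b : Fin n → ℕ)
    (hpow : ∀ i : Fin n, (i : ℕ) < c → ∃ u ∈ (ipart I (b i + 1)).baseChange D,
      ∃ w : Fin n → D ⊗[K] MvPolynomial (Fin n) K, (∀ k, w k ∈ Bd K D n (b i)) ∧
        M i ^ (b i + 1) = u + ∑ k ∈ Finset.univ.filter (fun k : Fin n => c ≤ k), w k * M k) :
    ∃ J : Set (Fin n →₀ ℕ), (∀ β ∈ J, ∀ i, β + Finsupp.single i 1 ∈ J) ∧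
      (∀ i : Fin n, (i : ℕ) < c → Finsupp.single i (b i + 1) ∈ J) ∧
      ∀ d (T : Finset (Fin n →₀ ℕ)), (∀ β, β ∈ T ↔ β ∈ J ∧ β.degree = d) →
        T.card = finrank K (ipart I d) := by
  classical
  let Ψ := Finsupp.linearCombination D (mono M hM)
  let m : MonomialOrder (Fin n) := MonomialOrder.lex
  let κ : (Fin n →₀ ℕ) → ℕ ×ₗ m.syn := fun β =>
    toLex (∑ k ∈ Finset.univ.filter (fun k : Fin n => c ≤ k), β k, m.toSyn β)
  have hκ : Function.Injective κ := by
    intro β γ h
    have := congrArg (fun x => (ofLex x).2) h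
    exact m.toSyn.injective this
  have hκa : ∀ β γ e, κ β ≤ κ γ → κ (β + e) ≤ κ (γ + e) := by
    intro β γ e h
    simp only [κ, Prod.Lex.toLex_le_toLex, Finsupp.add_apply, Finset.sum_add_distrib,
      map_add] at h ⊢
    rcases h with h | ⟨h, h'⟩
    · left; omega
    · right; exact ⟨by omega, by gcongr⟩
  let W : ℕ → Submodule D ((Fin n →₀ ℕ) →₀ D) := fun d =>
    Finsupp.supported D D (expo n d : Set (Fin n →₀ ℕ)) ⊓ ((ipart I d).baseChange D).comap Ψ
  have hsurj : ∀ d, ∀ y ∈ Bd K D n d,
      ∃ v ∈ Finsupp.supported D D (expo n d : Set (Fin n →₀ ℕ)), Ψ v = y := by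
    intro d y hy
    have := Bd_le_span M hM hs d hy
    rw [Finsupp.span_image_eq_map_linearCombination] at this
    exact this
  have hinj : ∀ d, Disjoint (Finsupp.supported D D (expo n d : Set (Fin n →₀ ℕ)))
      (LinearMap.ker Ψ) := by
    intro d
    rw [← linearIndepOn_iff_disjoint]
    have e : Set.range (fun x : (expo n d : Set (Fin n →₀ ℕ)) => mono M hM x) =
        mono M hM '' (expo n d : Set (Fin n →₀ ℕ)) := by ext; simp
    rw [LinearIndepOn, linearIndependent_iff_card_eq_finrank_span, Set.finrank, e]
    have e2 : Submodule.span D (mono M hM '' (expo n d : Set (Fin n →₀ ℕ))) = Bd K D n d := by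
      refine le_antisymm ?_ (Bd_le_span M hM hs d)
      rw [Submodule.span_le]
      rintro _ ⟨β, hβ, rfl⟩
      have := mono_mem M hM h1 β
      rwa [mem_expo.mp hβ] at this
    rw [e2, finrank_bc, finrank_hom, ← card_expo]
    simp
  have hshift : ∀ d i, ∀ v ∈ Finsupp.supported D D (expo n d : Set (Fin n →₀ ℕ)),
      v.mapDomain (· + Finsupp.single i 1) ∈
        Finsupp.supported D D (expo n (d + 1) : Set (Fin n →₀ ℕ)) := by
    intro d i v hv γ hγ
    obtain ⟨δ, hδ, rfl⟩ := Finset.mem_image.mp (Finsupp.mapDomain_support hγ)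
    have := mem_expo.mp (hv hδ)
    rw [Finset.mem_coe, mem_expo, map_add, this, Finsupp.degree_single]
  refine ⟨{β | ∃ w ∈ W β.degree, w β ≠ 0 ∧ ∀ γ ∈ w.support, κ β ≤ κ γ}, ?_, ?_, ?_⟩
  · rintro β ⟨w, ⟨hw1, hw2⟩, hw0, hwm⟩ i
    refine ⟨w.mapDomain (· + Finsupp.single i 1), ?_, ?_, ?_⟩
    · rw [map_add, Finsupp.degree_single]
      refine ⟨hshift _ i w hw1, ?_⟩
      refine Submodule.mem_comap.mpr ?_
      rw [lc_shift]
      exact bc_mul (p := ipart I β.degree) (r := ipart I (β.degree + 1))
        (fun x hx y hy => ⟨Ideal.mul_mem_right _ _ hx.1, IsHomogeneous.mul hx.2 hy⟩) hw2 (h1 i)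
    · rwa [Finsupp.mapDomain_apply (add_left_injective _)]
    · intro γ hγ
      obtain ⟨δ, hδ, rfl⟩ := Finset.mem_image.mp (Finsupp.mapDomain_support hγ)
      exact hκa _ _ _ (hwm δ hδ)
  · intro i hi
    obtain ⟨u, hu, w, hw, e⟩ := hpow i hi
    choose v hv hv' using fun k => hsurj _ _ (hw k)
    let r := ∑ k ∈ Finset.univ.filter (fun k : Fin n => c ≤ k),
      (v k).mapDomain (· + Finsupp.single k 1)
    have hr : ∀ γ, r γ ≠ 0 → 0 < ∑ k ∈ Finset.univ.filter (fun k : Fin n => c ≤ k), γ k := by
      intro γ hγ
      rw [Finsupp.finsetSum_apply] at hγ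
      obtain ⟨k, hk, hγ⟩ := Finset.exists_ne_zero_of_sum_ne_zero hγ
      obtain ⟨δ, _, rfl⟩ :=
        Finset.mem_image.mp (Finsupp.mapDomain_support (Finsupp.mem_support_iff.mpr hγ))
      refine lt_of_lt_of_le ?_ (Finset.single_le_sum (fun _ _ => Nat.zero_le _) hk)
      simp
    have h0 : ∑ k ∈ Finset.univ.filter (fun k : Fin n => c ≤ k),
        (Finsupp.single i (b i + 1)) k = 0 := by
      refine Finset.sum_eq_zero fun k hk => Finsupp.single_eq_of_ne ?_
      rintro rfl
      simp at hk; omega
    refine ⟨Finsupp.single (Finsupp.single i (b i + 1)) 1 - r, ?_, ?_, ?_⟩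
    · rw [Finsupp.degree_single]
      refine ⟨sub_mem (Finsupp.single_mem_supported _ _ (by simp [mem_expo]))
        (Submodule.sum_mem _ fun k _ => hshift _ k _ (hv k)), ?_⟩
      refine Submodule.mem_comap.mpr ?_
      rw [map_sub, map_sum]
      simp only [Ψ, lc_shift, Finsupp.linearCombination_single, one_smul, mono_single]
      simp only [Ψ] at hv'
      simp only [hv', e, add_sub_cancel_right]
      exact hu
    · have : r (Finsupp.single i (b i + 1)) = 0 := by
        by_contra hne
        have := hr _ hne
        omega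
      rw [Finsupp.sub_apply, this, Finsupp.single_eq_same, sub_zero]
      exact one_ne_zero
    · intro γ hγ
      by_cases hγ' : γ = Finsupp.single i (b i + 1)
      · rw [hγ']
      · have : r γ ≠ 0 := by
          intro h
          apply Finsupp.mem_support_iff.mp hγ
          rw [Finsupp.sub_apply, h, Finsupp.single_eq_of_ne hγ', sub_zero]
        have := hr _ this
        simp only [κ, Prod.Lex.toLex_le_toLex]
        left; omega
  · intro d T hT
    have hfin : FiniteDimensional D (W d) := by
      have : FiniteDimensional D (Finsupp.supported D D (expo n d : Set (Fin n →₀ ℕ))) :=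
        Module.Finite.equiv (Finsupp.supportedEquivFinsupp _).symm
      exact Submodule.finiteDimensional_of_le inf_le_left
    rw [card_lead κ hκ (W d) T, ← finrank_bc (D := D)]
    · have e : (W d).map Ψ = (ipart I d).baseChange D := by
        apply le_antisymm
        · rintro _ ⟨w, hw, rfl⟩
          exact hw.2
        · intro y hy
          obtain ⟨v, hv, rfl⟩ := hsurj d y (Submodule.baseChange_mono _ inf_le_right hy)
          exact ⟨v, ⟨hv, hy⟩, rfl⟩
      rw [← e]
      have hi : Function.Injective (Ψ.domRestrict (W d)) := by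
        rw [injective_iff_map_eq_zero]
        intro w hw
        exact Subtype.ext (Submodule.disjoint_def.mp (hinj d) w w.2.1 hw)
      rw [← LinearMap.range_domRestrict, LinearMap.finrank_range_of_inj hi]
    · intro β
      rw [hT]
      constructor
      · rintro ⟨h, rfl⟩
        exact h
      · rintro ⟨w, hw, hw0, hwm⟩
        have : β.degree = d := mem_expo.mp (hw.1 (Finsupp.mem_support_iff.mpr hw0))
        subst this
        exact ⟨⟨w, hw, hw0, hwm⟩, rfl⟩

end frame

lemma monomial_ideal {K : Type*} [Field K] {n : ℕ} (J : Set (Fin n →₀ ℕ))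
    (hJ : ∀ β ∈ J, ∀ i, β + Finsupp.single i 1 ∈ J) (d : ℕ) :
    ∃ T : Finset (Fin n →₀ ℕ), (∀ β, β ∈ T ↔ β ∈ J ∧ β.degree = d) ∧
      finrank K (ipart (Ideal.span ((fun β => (monomial β 1 : MvPolynomial (Fin n) K)) '' J)) d)
        = T.card := by
  classical
  have hup : ∀ e, ∀ β ∈ J, β + e ∈ J := by
    intro e
    induction e using Finsupp.induction_linear with
    | zero => simp
    | add e e' h h' => intro β hβ; rw [← add_assoc]; exact h' _ (h _ hβ)
    | single i a =>
      induction a with
      | zero => simp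
      | succ a ih =>
        intro β hβ
        rw [Finsupp.single_add, ← add_assoc]
        exact hJ _ (ih _ hβ) i
  refine ⟨(expo n d).filter (· ∈ J), fun β => by simp [mem_expo, and_comm], ?_⟩
  apply finrank_of_support
  intro g
  simp only [Submodule.mem_inf, Submodule.restrictScalars_mem, mem_ideal_span_monomial_image,
    mem_homogeneousSubmodule, mem_hom_iff, Finset.mem_filter]
  constructor
  · rintro ⟨h, h'⟩ u hu
    obtain ⟨β, hβ, hle⟩ := h u hu
    refine ⟨h' u hu, ?_⟩
    rw [← add_tsub_cancel_of_le hle]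
    exact hup _ _ hβ
  · intro h
    exact ⟨fun u hu => ⟨u, (h u hu).2, le_rfl⟩, fun u hu => (h u hu).1⟩

end Vale.Agent.P200
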