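import Vale.Agent.P200.Euler

/-! The graded Clifford algebra of a complete intersection of quadrics has no zero divisors. -/

set_option linter.unusedSectionVars false

namespace Vale.Agent.P200

open MvPolynomial Module TensorProduct

section
variable {k : Type*} [Field k] {c : ℕ} {R : Type*} [Ring R] [Algebra k R]
  [Algebra (MvPolynomial (Fin c) k) R] [IsScalarTower k (MvPolynomial (Fin c) k) R]

lemma monomial_smul_mem {a : ℕ} (L : ℕ → Submodule k R)
    (hLt : ∀ i (j : Fin c), ∀ x ∈ L i, (X j : MvPolynomial (Fin c) k) • x ∈ L (i + a))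
    (α : Fin c →₀ ℕ) : ∀ i, ∀ x ∈ L i,
      (monomial α 1 : MvPolynomial (Fin c) k) • x ∈ L (i + a * α.degree) := by
  induction α using Finsupp.induction_linear with
  | zero => intro i x hx; simpa using hx
  | add α β hα hβ =>
    intro i x hx
    have := hα _ _ (hβ i x hx)
    rw [smul_smul, monomial_mul, one_mul] at this
    rwa [map_add, mul_add, add_comm (a * α.degree), ← add_assoc]
  | single j n =>
    induction n with
    | zero => intro i x hx; simpa using hx
    | succ n ih =>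
      intro i x hx
      have := hLt _ j _ (ih i x hx)
      rw [smul_smul, Finsupp.degree_single] at this
      rw [Finsupp.degree_single, add_comm n 1, Finsupp.single_add, monomial_single_add, pow_one,
        mul_add, mul_one, add_comm a, ← add_assoc]
      exact this

lemma hom_smul_mem {a : ℕ} (L : ℕ → Submodule k R)
    (hLt : ∀ i (j : Fin c), ∀ x ∈ L i, (X j : MvPolynomial (Fin c) k) • x ∈ L (i + a))
    {n : ℕ} {o : MvPolynomial (Fin c) k} (ho : o.IsHomogeneous n) {i : ℕ} {x : R}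
    (hx : x ∈ L i) : o • x ∈ L (i + a * n) := by
  rw [o.as_sum, Finset.sum_smul]
  refine Submodule.sum_mem _ fun u hu => ?_
  have : monomial u (coeff u o) = coeff u o • (monomial u 1 : MvPolynomial (Fin c) k) := by
    simp [smul_monomial]
  rw [this, smul_assoc, ← mem_expo.mp (mem_hom_iff.mp ho u hu)]
  exact Submodule.smul_mem _ _ (monomial_smul_mem L hLt u i x hx)

lemma lower_bound {a : ℕ} (L : ℕ → Submodule k R) (hfin : ∀ i, FiniteDimensional k (L i))
    (hLt : ∀ i (j : Fin c), ∀ x ∈ L i, (X j : MvPolynomial (Fin c) k) • x ∈ L (i + a))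
    (htf : ∀ (o : MvPolynomial (Fin c) k) (x : R), o • x = 0 → o = 0 ∨ x = 0)
    {i : ℕ} {x : R} (hx : x ∈ L i) (hx0 : x ≠ 0) (n : ℕ) :
    c.multichoose n ≤ finrank k (L (i + a * n)) := by
  let ψ : homogeneousSubmodule (Fin c) k n →ₗ[k] L (i + a * n) :=
    LinearMap.codRestrict _ (((LinearMap.toSpanSingleton (MvPolynomial (Fin c) k) R x).restrictScalars
      k).comp (Submodule.subtype _)) fun o => hom_smul_mem L hLt o.2 hx
  have hψ : Function.Injective ψ := by
    rw [injective_iff_map_eq_zero]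
    intro o ho
    have : (o : MvPolynomial (Fin c) k) • x = 0 := congrArg Subtype.val ho
    exact Subtype.ext ((htf _ _ this).resolve_right hx0)
  rw [← finrank_hom (k := k)]
  exact LinearMap.finrank_le_finrank_of_injective hψ

omit [Algebra (MvPolynomial (Fin c) k) R] [IsScalarTower k (MvPolynomial (Fin c) k) R] in
lemma dvd_finrank {D : Type*} [DivisionRing D] [Algebra k D] (ι : D →ₐ[k] R)
    (N : Submodule k R) (hN : ∀ d, ∀ x ∈ N, ι d * x ∈ N) : finrank k D ∣ finrank k N := by
  let : Module D R := Module.compHom R (ι : D →+* R)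
  have : IsScalarTower k D R := ⟨fun r d x => by
    show ι (r • d) * x = r • (ι d * x)
    rw [map_smul, smul_mul_assoc]⟩
  let N' : Submodule D R :=
    { carrier := N
      add_mem' := add_mem
      zero_mem' := zero_mem _
      smul_mem' := hN }
  have e : finrank k N = finrank k N' := rfl
  rw [e, ← Module.finrank_mul_finrank k D N']
  exact Dvd.intro _ rfl

variable (g : Fin c → R)

variable (k) in
/-- span of the ordered monomials of degree `i` in the generators with index at least `r` -/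
def Wd (r i : ℕ) : Submodule k R :=
  Submodule.span k {x | ∃ (α : Fin c →₀ ℕ) (l : List (Fin c)), l.Pairwise (· < ·) ∧
    (∀ y ∈ l, r ≤ (y : ℕ)) ∧ 2 * α.degree + l.length = i ∧
    x = (monomial α 1 : MvPolynomial (Fin c) k) • (l.map g).prod}

lemma Wd_X (r i : ℕ) (j : Fin c) : ∀ x ∈ Wd k g r i,
    (X j : MvPolynomial (Fin c) k) • x ∈ Wd k g r (i + 2) := by
  intro x hx
  induction hx using Submodule.span_induction with
  | mem x hx =>
    obtain ⟨α, l, h1, h2, h3, rfl⟩ := hx
    refine Submodule.subset_span ⟨Finsupp.single j 1 + α, l, h1, h2, ?_, ?_⟩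
    · rw [map_add, Finsupp.degree_single]; omega
    · rw [smul_smul, monomial_single_add, pow_one]
  | zero => simp
  | add x y _ _ hx hy => rw [smul_add]; exact add_mem hx hy
  | smul a x _ hx => rw [smul_comm]; exact Submodule.smul_mem _ _ hx

lemma Wd_cons {r i : ℕ} {s : Fin c} (hs : r ≤ s) : ∀ x ∈ Wd k g (s + 1) i,
    g s * x ∈ Wd k g r (i + 1) := by
  intro x hx
  induction hx using Submodule.span_induction with
  | mem x hx =>
    obtain ⟨α, l, h1, h2, h3, rfl⟩ := hx
    refine Submodule.subset_span ⟨α, s :: l, ?_, ?_, ?_, ?_⟩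
    · exact List.pairwise_cons.mpr ⟨fun y hy => h2 y hy, h1⟩
    · intro y hy
      rcases List.mem_cons.mp hy with rfl | hy
      · exact hs
      · have := h2 y hy; omega
    · simp; omega
    · simp
  | zero => simp
  | add x y _ _ hx hy => rw [mul_add]; exact add_mem hx hy
  | smul a x _ hx => rw [mul_smul_comm]; exact Submodule.smul_mem _ _ hx

lemma list_mem_Wd {r : ℕ} {l : List (Fin c)} (h1 : l.Pairwise (· < ·))
    (h2 : ∀ y ∈ l, r ≤ (y : ℕ)) : (l.map g).prod ∈ Wd k g r l.length :=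
  Submodule.subset_span ⟨0, l, h1, h2, by simp, by simp⟩

variable {g} {B : Fin c → Fin c → MvPolynomial (Fin c) k} (hB : ∀ m l, (B m l).IsHomogeneous 1)
  (h1 : ∀ m, g m * g m = algebraMap _ R (B m m))
  (h2 : ∀ m l, g m * g l + g l * g m = algebraMap _ R (B m l + B l m))

include hB h1 h2 in
lemma g_mul_list (l : List (Fin c)) : ∀ (r : ℕ) (m : Fin c), l.Pairwise (· < ·) →
    (∀ y ∈ l, r ≤ (y : ℕ)) → r ≤ m → g m * (l.map g).prod ∈ Wd k g r (l.length + 1) := by
  induction l with
  | nil =>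
    intro r m _ _ hm
    exact list_mem_Wd g (l := [m]) (by simp) (by simpa using hm)
  | cons s l ih =>
    intro r m hp hr hm
    have hp' := List.pairwise_cons.mp hp
    have hl : (l.map g).prod ∈ Wd k g r l.length :=
      list_mem_Wd g hp'.2 fun y hy => hr y (List.mem_cons_of_mem _ hy)
    rcases lt_trichotomy m s with h | rfl | h
    · refine list_mem_Wd g (l := m :: s :: l) (List.pairwise_cons.mpr ⟨?_, hp⟩) ?_
      · intro y hy
        rcases List.mem_cons.mp hy with rfl | hy
        · exact h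
        · exact h.trans (hp'.1 y hy)
      · intro y hy
        rcases List.mem_cons.mp hy with rfl | hy
        · exact hm
        · exact hr y hy
    · rw [List.map_cons, List.prod_cons, ← mul_assoc, h1, ← Algebra.smul_def]
      exact hom_smul_mem _ (Wd_X g r) (hB m m) hl
    · have e : g m * (List.map g (s :: l)).prod =
          (B m s + B s m) • (l.map g).prod - g s * (g m * (l.map g).prod) := by
        rw [List.map_cons, List.prod_cons, Algebra.smul_def, ← h2]
        noncomm_ring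
      rw [e]
      refine sub_mem (hom_smul_mem _ (Wd_X g r) ((hB m s).add (hB s m)) hl) ?_
      exact Wd_cons g (hr s List.mem_cons_self) _ (ih (s + 1) m hp'.2 (fun y hy => hp'.1 y hy) h)

include hB h1 h2 in
lemma Wd_g (i : ℕ) (m : Fin c) : ∀ x ∈ Wd k g 0 i, g m * x ∈ Wd k g 0 (i + 1) := by
  intro x hx
  induction hx using Submodule.span_induction with
  | mem x hx =>
    obtain ⟨α, l, h3, h4, rfl, rfl⟩ := hx
    rw [mul_smul_comm]
    have := monomial_smul_mem _ (Wd_X g 0) α _ _ (g_mul_list hB h1 h2 l 0 m h3 h4 (Nat.zero_le _))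
    convert this using 2
    ring
  | zero => simp
  | add x y _ _ hx hy => rw [mul_add]; exact add_mem hx hy
  | smul a x _ hx => rw [mul_smul_comm]; exact Submodule.smul_mem _ _ hx

variable (g)

lemma Wd_le (i : ℕ) : ∃ T : Finset R, T.card ≤ c.multichoose i ∧
    Wd k g 0 i ≤ Submodule.span k (T : Set R) := by
  classical
  let μ : (Fin c →₀ ℕ) → R := fun β =>
    (monomial (β.mapRange (· / 2) (by simp)) 1 : MvPolynomial (Fin c) k) •
      (((Finset.univ.filter fun y => β y % 2 = 1).sort).map g).prod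
  refine ⟨(expo c i).image μ, Finset.card_image_le.trans (card_expo c i).le, ?_⟩
  rw [Wd, Submodule.span_le]
  rintro _ ⟨α, l, h1, -, h3, rfl⟩
  have hnd : l.Nodup := h1.imp ne_of_lt
  let β : Fin c →₀ ℕ := 2 • α + ∑ y ∈ l.toFinset, Finsupp.single y 1
  have hβ : ∀ y, β y = 2 * α y + if y ∈ l then 1 else 0 := by
    intro y
    simp [β, Finsupp.finsetSum_apply, Finsupp.single_apply]
  apply Submodule.subset_span
  simp only [Finset.coe_image]
  refine ⟨β, ?_, ?_⟩
  · rw [Finset.mem_coe, mem_expo, ← h3]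
    simp [β, map_sum, List.toFinset_card_of_nodup hnd]
  · have e1 : β.mapRange (· / 2) (by simp) = α := by
      ext y
      rw [Finsupp.mapRange_apply, hβ]
      split_ifs <;> omega
    have e2 : (Finset.univ.filter fun y => β y % 2 = 1) = l.toFinset := by
      ext y
      simp only [Finset.mem_filter, Finset.mem_univ, true_and, hβ, List.mem_toFinset]
      split_ifs with h <;> simp [h]
    simp only [μ, e1, e2]
    rw [(List.toFinset_sort (· ≤ ·) hnd).mpr (h1.imp le_of_lt)]

instance WdFin (i : ℕ) : FiniteDimensional k (Wd k g 0 i) := by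
  obtain ⟨T, -, hT⟩ := Wd_le (k := k) g i
  exact Submodule.finiteDimensional_of_le hT

lemma finrank_Wd (i : ℕ) : finrank k (Wd k g 0 i) ≤ c.multichoose i := by
  obtain ⟨T, h, hT⟩ := Wd_le (k := k) g i
  exact (Submodule.finrank_mono hT).trans ((finrank_span_finset_le_card T).trans h)

lemma evGen_Wd : EvGen 2 (fun j x => (X j : MvPolynomial (Fin c) k) • x) (Wd k g 0) := by
  classical
  refine ⟨c, fun i hi x hx => ?_⟩
  induction hx using Submodule.span_induction with
  | mem x hx =>
    obtain ⟨α, l, h1, h2, h3, rfl⟩ := hx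
    have hl : l.length ≤ c := by
      simpa using List.Nodup.length_le_card (h1.imp ne_of_lt : l.Nodup)
    have hne : α ≠ 0 := by rintro rfl; simp at h3; omega
    obtain ⟨j, hj⟩ := Finsupp.support_nonempty_iff.mpr hne
    obtain ⟨v, rfl⟩ : ∃ v, α = Finsupp.single j 1 + v := by
      refine ⟨α - Finsupp.single j 1, (add_tsub_cancel_of_le ?_).symm⟩
      rw [Finsupp.single_le_iff]
      exact Nat.one_le_iff_ne_zero.mpr (Finsupp.mem_support_iff.mp hj)
    rw [map_add, Finsupp.degree_single] at h3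
    refine ⟨Pi.single j ((monomial v 1 : MvPolynomial (Fin c) k) • (l.map g).prod), ?_, ?_⟩
    · intro j'
      rw [Pi.single_apply]
      split_ifs
      · exact Submodule.subset_span ⟨v, l, h1, h2, by omega, rfl⟩
      · exact zero_mem _
    · rw [Finset.sum_eq_single j]
      · simp [smul_smul, monomial_single_add]
      · intro j' _ hj'; simp [Pi.single_eq_of_ne hj']
      · simp
  | zero => exact ⟨0, by simp, by simp⟩
  | add x y _ _ hx hy =>
    obtain ⟨x, hx, rfl⟩ := hx
    obtain ⟨y, hy, rfl⟩ := hy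
    exact ⟨x + y, fun j => add_mem (hx j) (hy j), by simp [Finset.sum_add_distrib]⟩
  | smul a x _ hx =>
    obtain ⟨x, hx, rfl⟩ := hx
    exact ⟨a • x, fun j => Submodule.smul_mem _ _ (hx j), by simp [Finset.smul_sum, smul_comm a]⟩

variable {D : Type*} [DivisionRing D] [Algebra k D] (ι : D →ₐ[k] R)

/-- graded pieces of the Clifford algebra over `D` -/
def Fd (i : ℕ) : Submodule k R :=
  (box (LinearMap.range ι.toLinearMap) (Wd k g 0 i)).map (LinearMap.mul' k R)

lemma mul_mem_Fd {i : ℕ} (d : D) {x : R} (hx : x ∈ Wd k g 0 i) : ι d * x ∈ Fd g ι i :=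
  ⟨ι d ⊗ₜ x, tmul_mem_box ⟨d, rfl⟩ hx, rfl⟩

lemma Fd_induction {i : ℕ} {p : R → Prop} (h0 : p 0) (ht : ∀ d, ∀ x ∈ Wd k g 0 i, p (ι d * x))
    (ha : ∀ x y, p x → p y → p (x + y)) {w : R} (hw : w ∈ Fd g ι i) : p w := by
  obtain ⟨w, hw, rfl⟩ := hw
  refine box_induction (p := fun w => p (LinearMap.mul' k R w)) (by simpa using h0) ?_
    (fun x y hx hy => by rw [map_add]; exact ha _ _ hx hy) hw
  rintro _ ⟨d, rfl⟩ y hy
  exact ht d y hy

instance FdFin [FiniteDimensional k D] (i : ℕ) : FiniteDimensional k (Fd g ι i) := by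
  rw [Fd]; infer_instance

lemma finrank_Fd [FiniteDimensional k D] (i : ℕ) :
    finrank k (Fd g ι i) ≤ finrank k D * c.multichoose i := by
  refine (Submodule.finrank_map_le _ _).trans ?_
  rw [finrank_box]
  exact Nat.mul_le_mul (LinearMap.finrank_range_le _) (finrank_Wd g i)

lemma Fd_ι (i : ℕ) (d : D) : ∀ x ∈ Fd g ι i, ι d * x ∈ Fd g ι i := fun _ hx =>
  Fd_induction g ι (p := fun x => ι d * x ∈ Fd g ι i) (by simp)
    (fun e x hx => by rw [← mul_assoc, ← map_mul]; exact mul_mem_Fd g ι _ hx)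
    (fun x y hx hy => by rw [mul_add]; exact add_mem hx hy) hx

lemma Fd_X (i : ℕ) (j : Fin c) : ∀ x ∈ Fd g ι i,
    (X j : MvPolynomial (Fin c) k) • x ∈ Fd g ι (i + 2) := fun _ hx =>
  Fd_induction g ι (p := fun x => (X j : MvPolynomial (Fin c) k) • x ∈ Fd g ι (i + 2)) (by simp)
    (fun e x hx => by rw [← mul_smul_comm]; exact mul_mem_Fd g ι _ (Wd_X g 0 i j x hx))
    (fun x y hx hy => by rw [smul_add]; exact add_mem hx hy) hx

lemma evGen_Fd : EvGen 2 (fun j x => (X j : MvPolynomial (Fin c) k) • x) (Fd g ι) := by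
  obtain ⟨i0, h⟩ := evGen_Wd (k := k) g
  refine ⟨i0, fun i hi x hx => ?_⟩
  refine Fd_induction g ι (p := fun x => ∃ y : Fin c → R, (∀ j, y j ∈ Fd g ι i) ∧
    x = ∑ j, (X j : MvPolynomial (Fin c) k) • y j) ⟨0, by simp, by simp⟩ ?_ ?_ hx
  · intro d x hx
    obtain ⟨y, hy, rfl⟩ := h i hi x hx
    exact ⟨fun j => ι d * y j, fun j => mul_mem_Fd g ι d (hy j), by simp [Finset.mul_sum]⟩
  · rintro _ _ ⟨x, hx, rfl⟩ ⟨y, hy, rfl⟩
    exact ⟨x + y, fun j => add_mem (hx j) (hy j), by simp [Finset.sum_add_distrib]⟩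

variable {g ι} (hc : ∀ d m, Commute (ι d) (g m))

include hB h1 h2 hc in
lemma Fd_g (i : ℕ) (m : Fin c) : ∀ x ∈ Fd g ι i, g m * x ∈ Fd g ι (i + 1) := fun _ hx =>
  Fd_induction g ι (p := fun x => g m * x ∈ Fd g ι (i + 1)) (by simp)
    (fun e x hx => by
      rw [← mul_assoc, ← (hc e m).eq, mul_assoc]
      exact mul_mem_Fd g ι _ (Wd_g hB h1 h2 i m x hx))
    (fun x y hx hy => by rw [mul_add]; exact add_mem hx hy) hx

include hB h1 h2 hc in
lemma Fd_mul {i j : ℕ} {x y : R} (hx : x ∈ Fd g ι i) (hy : y ∈ Fd g ι j) :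
    x * y ∈ Fd g ι (i + j) := by
  refine Fd_induction g ι (p := fun x => x * y ∈ Fd g ι (i + j)) (by simp) ?_
    (fun x y hx hy => by rw [add_mul]; exact add_mem hx hy) hx
  intro d x hx
  rw [mul_assoc]
  apply Fd_ι
  induction hx using Submodule.span_induction with
  | mem x hx =>
    obtain ⟨α, l, -, -, rfl, rfl⟩ := hx
    have : ∀ l : List (Fin c), (l.map g).prod * y ∈ Fd g ι (j + l.length) := by
      intro l
      induction l with
      | nil => simpa using hy
      | cons s l ih =>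
        rw [List.map_cons, List.prod_cons, mul_assoc]
        exact Fd_g hB h1 h2 hc _ s _ ih
    rw [smul_mul_assoc]
    convert monomial_smul_mem _ (Fd_X g ι) α _ _ (this l) using 2
    ring
  | zero => simp
  | add x y _ _ hx hy => rw [add_mul]; exact add_mem hx hy
  | smul a x _ hx => rw [smul_mul_assoc]; exact Submodule.smul_mem _ _ hx

include hB h1 h2 hc in
theorem graded_domain [FiniteDimensional k D] (hc0 : 0 < c) {f : Fin c → MvPolynomial (Fin c) k}
    (hf : ∀ i, (f i).IsHomogeneous 2) (hreg : IsReg f)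
    (hrel : (∑ m, g m ⊗ₜ[k] (X m : MvPolynomial (Fin c) k)) ^ 2 =
      ∑ j, algebraMap (MvPolynomial (Fin c) k) R (X j) ⊗ₜ f j)
    (htf : ∀ (o : MvPolynomial (Fin c) k) (x : R), o • x = 0 → o = 0 ∨ x = 0)
    {i j : ℕ} {x y : R} (hx : x ∈ Fd g ι i) (hy : y ∈ Fd g ι j) (hxy : x * y = 0) :
    x = 0 ∨ y = 0 := by
  by_contra hne
  push Not at hne
  obtain ⟨m, rfl⟩ : ∃ m, c = m + 1 := ⟨c - 1, by omega⟩
  let ψ := LinearMap.mulRight k y
  let L1 : ℕ → Submodule k R := fun n => Fd g ι n ⊓ LinearMap.ker ψ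
  let L2 : ℕ → Submodule k R := fun n => (Fd g ι n).map ψ
  have f1 : ∀ n, FiniteDimensional k (L1 n) := fun n => inferInstance
  have f2 : ∀ n, FiniteDimensional k (L2 n) := fun n => inferInstance
  have t1 : ∀ i (j : Fin (m + 1)), ∀ x ∈ L1 i,
      (X j : MvPolynomial (Fin (m + 1)) k) • x ∈ L1 (i + 2) := by
    rintro i j x ⟨hx, hx0⟩
    refine ⟨Fd_X g ι i j x hx, ?_⟩
    have : x * y = 0 := hx0
    show (_ • x) * y = 0
    rw [smul_mul_assoc, this, smul_zero]
  have t2 : ∀ i (j : Fin (m + 1)), ∀ x ∈ L2 i,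
      (X j : MvPolynomial (Fin (m + 1)) k) • x ∈ L2 (i + 2) := by
    rintro i j _ ⟨x, hx, rfl⟩
    exact ⟨_, Fd_X g ι i j x hx, smul_mul_assoc _ _ _⟩
  have E1 := euler hf hreg hrel (Fd g ι) L1 (fun n => inferInstance) (evGen_Fd g ι)
    (fun n => inf_le_left) (by
      rintro i j x ⟨hx, hx0⟩
      refine ⟨Fd_g hB h1 h2 hc i j x hx, ?_⟩
      have : x * y = 0 := hx0
      show (_ * x) * y = 0
      rw [mul_assoc, this, mul_zero]) t1
  have E2 := euler hf hreg hrel L2 L2 f2 (by
      obtain ⟨i0, h⟩ := evGen_Fd g ι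
      refine ⟨i0, ?_⟩
      rintro i hi _ ⟨x, hx, rfl⟩
      obtain ⟨z, hz, rfl⟩ := h i hi x hx
      exact ⟨fun j => z j * y, fun j => ⟨z j, hz j, rfl⟩, by simp [ψ, Finset.sum_mul]⟩)
    (fun n => le_rfl) (by
      rintro i j _ ⟨x, hx, rfl⟩
      exact ⟨_, Fd_g hB h1 h2 hc i j x hx, mul_assoc _ _ _⟩) t2
  have one_mem : (1 : R) ∈ Fd g ι 0 := by
    have := mul_mem_Fd g ι 1 (list_mem_Wd (k := k) g (r := 0) (l := []) (by simp) (by simp))
    simpa using this
  refine numeric_contra m (finrank k D) (by exact_mod_cast Module.finrank_pos) _ _ i 0 E1 E2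
    (fun n => ?_) (fun n => ?_) (fun n => ?_) (fun n => ?_) (fun n => ?_)
  · refine Int.natCast_dvd_natCast.mpr (dvd_finrank ι _ ?_)
    rintro d x ⟨hx, hx0⟩
    refine ⟨Fd_ι g ι n d x hx, ?_⟩
    have : x * y = 0 := hx0
    show (_ * x) * y = 0
    rw [mul_assoc, this, mul_zero]
  · refine Int.natCast_dvd_natCast.mpr (dvd_finrank ι _ ?_)
    rintro d _ ⟨x, hx, rfl⟩
    exact ⟨_, Fd_ι g ι n d x hx, mul_assoc _ _ _⟩
  · exact_mod_cast lower_bound L1 f1 t1 htf (x := x) ⟨hx, hxy⟩ hne.1 n
  · exact_mod_cast lower_bound L2 f2 t2 htf (x := y) ⟨1, one_mem, one_mul y⟩ hne.2 n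
  · have h3 := finrank_map_add ψ (Fd g ι n)
    have h4 := finrank_Fd g ι n
    have : finrank k (L1 n) + finrank k (L2 n) ≤ finrank k D * (m + 1).multichoose n := by
      simp only [L1, L2]; omega
    exact_mod_cast this

end

end Vale.Agent.P200
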