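import Vale.Agent.P200.Tower

/-! The Eisenbud-Green-Harris property for quadrics. -/

namespace Vale.Agent.P200

open MvPolynomial Module TensorProduct

universe u

lemma left_inverse {D : Type*} [DivisionRing D] {c : ℕ} (γ w : Fin c → Fin c → D)
    (hw : ∀ a a', ∑ m, γ a m * w m a' = if a = a' then 1 else 0) (m : Fin c) :
    ∃ u : Fin c → D, ∀ l, ∑ a, u a * γ a l = if m = l then 1 else 0 := by
  let φ : (Fin c → D) →ₗ[D] (Fin c → D) := Fintype.linearCombination D γ
  have hφ : ∀ u l, φ u l = ∑ a, u a * γ a l := by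
    intro u l; simp [φ, Fintype.linearCombination_apply]
  have hinj : Function.Injective φ := by
    rw [injective_iff_map_eq_zero]
    intro u hu
    funext a'
    have : ∑ l, φ u l * w l a' = u a' := by
      simp only [hφ, Finset.sum_mul, mul_assoc]
      rw [Finset.sum_comm]
      simp [← Finset.mul_sum, hw]
    rw [← this, hu]; simp
  obtain ⟨u, hu⟩ := LinearMap.injective_iff_surjective.mp hinj (Pi.single m 1)
  exact ⟨u, fun l => by rw [← hφ, hu, Pi.single_apply]; simp [eq_comm]⟩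

lemma quad_sub {k : Type*} [CommRing k] {n : ℕ} (b : Fin n → Fin n → k)
    (ρ : MvPolynomial (Fin n) k →ₐ[k] MvPolynomial (Fin n) k) :
    ρ (quad b) = quad b +
      ∑ p, (-∑ q, (C (b p q) * X q + C (b q p) * ρ (X q))) * (X p - ρ (X p)) := by
  have hC : ∀ r, ρ (C r) = C r := fun r => ρ.commutes r
  have : ∑ p, ∑ q, C (b q p) * ρ (X q) * (X p - ρ (X p)) =
      ∑ p, ∑ q, C (b p q) * ρ (X p) * (X q - ρ (X q)) := Finset.sum_comm
  simp only [quad, map_sum, map_mul, hC, neg_mul, Finset.sum_mul, add_mul, Finset.sum_add_distrib,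
    Finset.sum_neg_distrib, this]
  simp only [← Finset.sum_add_distrib, ← Finset.sum_neg_distrib]
  refine Finset.sum_congr rfl fun p _ => Finset.sum_congr rfl fun q _ => ?_
  ring

theorem egh_core {K k D : Type*} [Field K] [Field k] [Algebra K k] [DivisionRing D] [Algebra K D]
    (θ : k →ₐ[K] D) (hθ : ∀ r d, Commute (θ r) d) {n c : ℕ} (hc : c ≤ n)
    (b : Fin c → Fin n → Fin n → K) (I : Ideal (MvPolynomial (Fin n) K))
    (hI : ∀ j, quad (b j) ∈ I) (lam : Fin n → Fin c → k)
    (hlam : ∀ i : Fin c, lam (Fin.castLE hc i) = Pi.single i 1)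
    (b' : Fin c → Fin c → Fin c → k) (ρ : MvPolynomial (Fin n) k →ₐ[k] MvPolynomial (Fin c) k)
    (hρ : ∀ p, ρ (X p) = ∑ l, C (lam p l) * X l)
    (hb' : ∀ j, ρ (quad fun p q => algebraMap K k (b j p q)) = quad (b' j))
    (γ τ w : Fin c → Fin c → D)
    (hcomm : ∀ a a', a ≠ a' → ∀ m l, Commute (γ a m) (γ a' l))
    (h1 : ∀ a m, γ a m * γ a m = ∑ j, τ a j * θ (b' j m m))
    (h2 : ∀ a m l, γ a m * γ a l + γ a l * γ a m =
        ∑ j, τ a j * θ (b' j m l) + ∑ j, τ a j * θ (b' j l m))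
    (hw : ∀ a a', ∑ m, γ a m * w m a' = if a = a' then 1 else 0) :
    ∃ J : Set (Fin n →₀ ℕ), (∀ β ∈ J, ∀ i, β + Finsupp.single i 1 ∈ J) ∧
      (∀ i : Fin n, (i : ℕ) < c → Finsupp.single i 2 ∈ J) ∧
      ∀ d (T : Finset (Fin n →₀ ℕ)), (∀ β, β ∈ T ↔ β ∈ J ∧ β.degree = d) →
        T.card = finrank K (ipart I d) := by
  classical
  let ψ : MvPolynomial (Fin n) k →+* D ⊗[K] MvPolynomial (Fin n) K :=
    (Algebra.TensorProduct.map θ (AlgHom.id K _)).toRingHom.comp
      (algebraTensorAlgEquiv K k).symm.toRingEquiv.toRingHom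
  have ψm : ∀ u r, ψ (monomial u r) = θ r ⊗ₜ monomial u 1 := by
    intro u r; simp [ψ]
  have ψX : ∀ p, ψ (X p) = 1 ⊗ₜ X p := by
    intro p; simp [ψ]
  have ψC : ∀ r, ψ (C r) = θ r ⊗ₜ 1 := fun r => ψm 0 r
  have ψmap : ∀ g, ψ (map (algebraMap K k) g) = 1 ⊗ₜ g := by
    intro g; simp [ψ]
  have ψcomm : ∀ g y, Commute (ψ g) y := by
    intro g y
    induction g using MvPolynomial.induction_on' with
    | monomial u r =>
      rw [ψm]
      induction y using TensorProduct.induction_on with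
      | zero => simp
      | tmul d s => simp [Commute, SemiconjBy, (hθ r d).eq, mul_comm]
      | add x y hx hy => exact hx.add_right hy
    | add p q hp hq => rw [map_add]; exact hp.add_left hq
  have ψhom : ∀ d g, g.IsHomogeneous d → ψ g ∈ Bd K D n d := by
    intro d g hg
    rw [g.as_sum, map_sum]
    refine Submodule.sum_mem _ fun u hu => ?_
    rw [ψm]
    exact Submodule.tmul_mem_baseChange_of_mem _
      (isHomogeneous_monomial _ (mem_expo.mp (mem_hom_iff.mp hg u hu)))
  let ρ' : MvPolynomial (Fin n) k →ₐ[k] MvPolynomial (Fin n) k := (rename (Fin.castLE hc)).comp ρ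
  have hρ' : ∀ p, ρ' (X p) = ∑ l, C (lam p l) * X (Fin.castLE hc l) := by
    intro p; simp [ρ', hρ, map_sum]
  have hρ1 : ∀ p, (ρ' (X p)).IsHomogeneous 1 := fun p => by
    rw [hρ']; exact IsHomogeneous.sum _ _ _ fun l _ => isHomogeneous_C_mul_X _ _
  let N : Fin c → D ⊗[K] MvPolynomial (Fin n) K := fun a => ∑ m, γ a m ⊗ₜ X (Fin.castLE hc m)
  let M : Fin n → D ⊗[K] MvPolynomial (Fin n) K := fun p =>
    if h : (p : ℕ) < c then N ⟨p, h⟩ else ψ (X p - ρ' (X p))
  have hM : ∀ i j, Commute (M i) (M j) := by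
    intro i j
    simp only [M]
    split_ifs with hi hj
    · by_cases hij : (⟨i, hi⟩ : Fin c) = ⟨j, hj⟩
      · rw [hij]
      · refine Commute.sum_left _ _ _ fun m _ => Commute.sum_right _ _ _ fun l _ => ?_
        simp [Commute, SemiconjBy, (hcomm _ _ hij m l).eq, mul_comm]
    · exact (ψcomm _ _).symm
    · exact ψcomm _ _
    · exact ψcomm _ _
  have hspan : ∀ m : Fin c, (1 : D) ⊗ₜ[K] (X (Fin.castLE hc m) : MvPolynomial (Fin n) K) ∈
      Submodule.span D (Set.range M) := by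
    intro m
    obtain ⟨u, hu⟩ := left_inverse γ w hw m
    have : (1 : D) ⊗ₜ[K] (X (Fin.castLE hc m) : MvPolynomial (Fin n) K) = ∑ a, u a • N a := by
      simp only [N, Finset.smul_sum, smul_tmul', smul_eq_mul]
      rw [Finset.sum_comm]
      simp [← sum_tmul, hu, ite_tmul]
    rw [this]
    refine Submodule.sum_mem _ fun a _ => Submodule.smul_mem _ _ (Submodule.subset_span
      ⟨Fin.castLE hc a, ?_⟩)
    simp [M]
  refine frame M hM I ?_ ?_ c (fun _ => 1) ?_
  · intro i
    simp only [M]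
    split_ifs
    · exact Submodule.sum_mem _ fun m _ =>
        Submodule.tmul_mem_baseChange_of_mem _ (isHomogeneous_X _ _)
    · exact ψhom _ _ ((isHomogeneous_X _ _).sub (hρ1 i))
  · intro p
    by_cases hp : (p : ℕ) < c
    · exact hspan ⟨p, hp⟩
    · have : (1 : D) ⊗ₜ[K] (X p : MvPolynomial (Fin n) K) =
          M p + ∑ l, θ (lam p l) • ((1 : D) ⊗ₜ[K] X (Fin.castLE hc l)) := by
        simp [M, hp, hρ', ψX, ψC, map_sum, smul_tmul']
      rw [this]
      exact add_mem (Submodule.subset_span ⟨p, rfl⟩)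
        (Submodule.sum_mem _ fun l _ => Submodule.smul_mem _ _ (hspan l))
  · intro i hi
    let a : Fin c := ⟨i, hi⟩
    let W : Fin c → Fin n → MvPolynomial (Fin n) k := fun j p =>
      -∑ q, (C (algebraMap K k (b j p q)) * X q + C (algebraMap K k (b j q p)) * ρ' (X q))
    refine ⟨∑ j, τ a j ⊗ₜ quad (b j), Submodule.sum_mem _ fun j _ =>
      Submodule.tmul_mem_baseChange_of_mem _ ⟨hI j, quad_hom _⟩,
      fun p => ∑ j, τ a j • ψ (W j p), fun p => Submodule.sum_mem _ fun j _ =>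
        Submodule.smul_mem _ _ (ψhom _ _ (IsHomogeneous.neg (IsHomogeneous.sum _ _ _ fun q _ =>
          (isHomogeneous_C_mul_X _ _).add ((hρ1 q).C_mul _)))), ?_⟩
    have e1 : M i ^ 2 = ∑ j, τ a j • ψ (rename (Fin.castLE hc) (quad (b' j))) := by
      have := sq_sum (B := D ⊗[K] MvPolynomial (Fin n) K) (fun m => γ a m ⊗ₜ 1)
        (fun m => 1 ⊗ₜ X (Fin.castLE hc m)) (fun m l => (∑ j, τ a j * θ (b' j m l)) ⊗ₜ 1)
        (fun m y => one_tmul_comm _ y) (fun m => by simp [h1])
        (fun m l => by simp [← add_tmul, h2])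
      simp only [Algebra.TensorProduct.tmul_mul_tmul, mul_one, one_mul] at this
      simp only [M, hi, dif_pos, N]
      rw [this]
      simp only [quad, map_sum, map_mul, rename_C, rename_X, ψC, ψX, sum_tmul, Finset.smul_sum,
        Algebra.TensorProduct.tmul_mul_tmul, mul_one, one_mul, smul_tmul', smul_eq_mul]
      conv_rhs => rw [Finset.sum_comm]
      refine Finset.sum_congr rfl fun m _ => ?_
      conv_rhs => rw [Finset.sum_comm]
    have e2 : ∀ j, ψ (rename (Fin.castLE hc) (quad (b' j))) = 1 ⊗ₜ quad (b j) +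
        ∑ p ∈ Finset.univ.filter (fun p : Fin n => c ≤ p), ψ (W j p) * M p := by
      intro j
      have := quad_sub (fun p q => algebraMap K k (b j p q)) ρ'
      rw [← hb', ← ψmap, quad_map]
      refine (congrArg ψ this).trans ?_
      rw [map_add, map_sum, Finset.sum_filter]
      congr 1
      refine Finset.sum_congr rfl fun p _ => ?_
      split_ifs with hp
      · simp only [M, dif_neg (not_lt.mpr hp), map_mul, W]
      · have : X p - ρ' (X p) = 0 := by
          obtain ⟨p', rfl⟩ : ∃ p' : Fin c, p = Fin.castLE hc p' := ⟨⟨p, not_le.mp hp⟩, rfl⟩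
          simp [hρ', hlam, Pi.single_apply, apply_ite C]
        rw [this, mul_zero, map_zero]
    rw [e1]
    simp only [e2, smul_add, Finset.sum_add_distrib, smul_tmul', smul_eq_mul, mul_one,
      Finset.smul_sum, Finset.sum_mul]
    congr 1
    rw [Finset.sum_comm]
    refine Finset.sum_congr rfl fun p _ => Finset.sum_congr rfl fun j _ => ?_
    rw [smul_eq_tmul_mul, smul_eq_tmul_mul, mul_assoc]

theorem egh_quadrics {K : Type u} [Field K] {n c : ℕ} (hc : c ≤ n)
    (f : Fin c → MvPolynomial (Fin n) K) (hf : ∀ i, (f i).IsHomogeneous 2) (hreg : IsReg f)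
    (I : Ideal (MvPolynomial (Fin n) K)) (hI : ∀ i, f i ∈ I) :
    ∃ J : Set (Fin n →₀ ℕ), (∀ β ∈ J, ∀ i, β + Finsupp.single i 1 ∈ J) ∧
      (∀ i : Fin n, (i : ℕ) < c → Finsupp.single i 2 ∈ J) ∧
      ∀ d (T : Finset (Fin n →₀ ℕ)), (∀ β, β ∈ T ↔ β ∈ J ∧ β.degree = d) →
        T.card = finrank K (ipart I d) := by
  choose b hb using fun i => exists_quad (hf i)
  obtain rfl : f = fun i => quad (b i) := funext hb
  let k := AlgebraicClosure K
  have h1 := hreg.baseChange (k := k)
  simp only [quad_map] at h1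
  obtain ⟨lam, hlam, h2⟩ := elim hc h1
  simp only [linSub_quad] at h2
  obtain ⟨k', D, i1, i2, i3, i4, i5, γ, τ, w, hcomm, r1, r2, hw⟩ := tower _ h2 c le_rfl
  let θ : k →+* D := (algebraMap k' D).comp (algebraMap k k')
  have hθ : ∀ r d, Commute (θ r) d := fun r d => Algebra.commutes _ d
  let alg : Algebra K D := (θ.comp (algebraMap K k)).toAlgebra' fun r d => hθ _ d
  exact egh_core (K := K) ⟨θ, fun _ => rfl⟩ hθ hc b I hI lam hlam _ (linSub lam)
    (fun p => by simp [linSub]) (fun j => linSub_quad _ _) γ τ w hcomm r1 r2 hw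

end Vale.Agent.P200
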