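import Mathlib.RingTheory.Regular.Flat
import Mathlib.RingTheory.TensorProduct.MvPolynomial
import Mathlib.RingTheory.MvPolynomial.Homogeneous
import Mathlib.RingTheory.MvPolynomial.Ideal
import Mathlib.RingTheory.Flat.Stability
import Mathlib.Algebra.Order.Antidiag.FinsuppEquiv
import Mathlib.RingTheory.PowerSeries.WellKnown
import Mathlib.LinearAlgebra.FiniteDimensional.Lemmas
import Mathlib.Tactic

/-! Regular sequences in ideal form. -/

namespace Vale.Agent.P200

open MvPolynomial RingTheory.Sequence Module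

/-- the ideal generated by the first `m` members of a family -/
def idl {R : Type*} [CommRing R] {c : ℕ} (f : Fin c → R) (m : ℕ) : Ideal R :=
  Ideal.span (f '' {j | (j : ℕ) < m})

/-- regular sequence in ideal form -/
def IsReg {R : Type*} [CommRing R] {c : ℕ} (f : Fin c → R) : Prop :=
  ∀ (i : Fin c) (g : R), f i * g ∈ idl f i → g ∈ idl f i

section general
variable {R : Type*} [CommRing R] {c : ℕ}

lemma idl_zero (f : Fin c → R) : idl f 0 = ⊥ := by simp [idl]

lemma idl_succ (f : Fin c → R) (i : Fin c) :
    idl f (i + 1) = idl f i ⊔ Ideal.span {f i} := by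
  unfold idl
  rw [← Ideal.span_union]
  congr 1
  ext x
  simp only [Set.mem_image, Set.mem_ofPred_eq, Set.mem_union, Set.mem_singleton_iff]
  constructor
  · rintro ⟨j, hj, rfl⟩
    rcases Nat.lt_succ_iff_lt_or_eq.mp hj with h | h
    · exact Or.inl ⟨j, h, rfl⟩
    · exact Or.inr (by rw [Fin.ext h])
  · rintro (⟨j, hj, rfl⟩ | rfl)
    · exact ⟨j, by omega, rfl⟩
    · exact ⟨i, by omega, rfl⟩

lemma idl_top (f : Fin c → R) : idl f c = Ideal.span (Set.range f) := by
  unfold idl
  congr 1
  ext x
  simp

lemma mem_idl_succ (f : Fin c → R) (i : Fin c) (x : R) :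
    x ∈ idl f (i + 1) ↔ ∃ h ∈ idl f i, ∃ y, x = h + f i * y := by
  rw [idl_succ, Submodule.mem_sup]
  constructor
  · rintro ⟨h, hh, z, hz, rfl⟩
    obtain ⟨y, rfl⟩ := Ideal.mem_span_singleton'.mp hz
    exact ⟨h, hh, y, by ring⟩
  · rintro ⟨h, hh, y, rfl⟩
    exact ⟨h, hh, _, Ideal.mem_span_singleton'.mpr ⟨y, by ring⟩, rfl⟩

lemma ofList_take (f : Fin c → R) (m : ℕ) :
    Ideal.ofList ((List.ofFn f).take m) = idl f m := by
  unfold idl Ideal.ofList
  congr 1
  ext x
  simp only [Set.mem_ofPred_eq, Set.mem_image, List.mem_take_iff_getElem, List.getElem_ofFn,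
    List.length_ofFn]
  constructor
  · rintro ⟨j, hj, rfl⟩
    exact ⟨⟨j, by omega⟩, by simp only; omega, rfl⟩
  · rintro ⟨j, hj, rfl⟩
    exact ⟨j, by have := j.2; omega, rfl⟩

lemma isSMulRegular_quot_iff (I : Ideal R) (a : R) :
    IsSMulRegular (R ⧸ (I • ⊤ : Submodule R R)) a ↔ ∀ g, a * g ∈ I → g ∈ I := by
  rw [isSMulRegular_quotient_iff_mem_of_smul_mem]
  simp

lemma isReg_iff (f : Fin c → R) : IsReg f ↔ IsWeaklyRegular R (List.ofFn f) := by
  rw [isWeaklyRegular_iff]
  constructor
  · intro h i hi
    rw [ofList_take, isSMulRegular_quot_iff]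
    simp only [List.getElem_ofFn]
    exact h ⟨i, by simpa using hi⟩
  · intro h i
    have := h i (by simp)
    rw [ofList_take, isSMulRegular_quot_iff] at this
    simpa using this

/-- the ideal generated by all members but one -/
def idlx (f : Fin c → R) (j : Fin c) : Ideal R := Ideal.span (f '' {i | i ≠ j})

lemma IsReg.others {f : Fin c → R} (hf : IsReg f) (j : Fin c) (g : R)
    (h : f j * g ∈ idlx f j) : g ∈ idlx f j := by
  have key : ∀ m : ℕ, (j : ℕ) + 1 ≤ m → m ≤ c → ∀ g,
      f j * g ∈ Ideal.span (f '' {i | (i : ℕ) < m ∧ i ≠ j}) →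
      g ∈ Ideal.span (f '' {i | (i : ℕ) < m ∧ i ≠ j}) := by
    intro m hm
    induction m, hm using Nat.le_induction with
    | base =>
      intro _ g
      have : {i : Fin c | (i : ℕ) < j + 1 ∧ i ≠ j} = {i : Fin c | (i : ℕ) < j} := by
        ext i
        simp only [Set.mem_ofPred_eq, ne_eq, Fin.ext_iff]
        omega
      rw [this]
      exact hf j g
    | succ m hm ih =>
      intro hmc g hg
      let mm : Fin c := ⟨m, by omega⟩
      have e1 : Ideal.span (f '' {i : Fin c | (i : ℕ) < m + 1 ∧ i ≠ j}) =
          Ideal.span (f '' {i : Fin c | (i : ℕ) < m ∧ i ≠ j}) ⊔ Ideal.span {f mm} := by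
        rw [← Ideal.span_union, ← Set.image_singleton, ← Set.image_union]
        congr 2
        ext i
        simp only [Set.mem_ofPred_eq, ne_eq, Fin.ext_iff, Set.mem_union, Set.mem_singleton_iff, mm]
        omega
      have e2 : idl f m =
          Ideal.span (f '' {i : Fin c | (i : ℕ) < m ∧ i ≠ j}) ⊔ Ideal.span {f j} := by
        unfold idl
        rw [← Ideal.span_union, ← Set.image_singleton, ← Set.image_union]
        congr 2
        ext i
        simp only [Set.mem_ofPred_eq, ne_eq, Fin.ext_iff, Set.mem_union, Set.mem_singleton_iff]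
        omega
      rw [e1] at hg ⊢
      obtain ⟨h, hh, z, hz, hsum⟩ := Submodule.mem_sup.mp hg
      obtain ⟨y, rfl⟩ := Ideal.mem_span_singleton'.mp hz
      have hy : y ∈ idl f m := by
        apply hf mm y
        show f mm * y ∈ idl f m
        rw [e2]
        have : f mm * y = -h + g * f j := by linear_combination hsum
        rw [this]
        exact Submodule.add_mem_sup (neg_mem hh) (Ideal.mem_span_singleton'.mpr ⟨g, rfl⟩)
      rw [e2] at hy
      obtain ⟨h', hh', z, hz, hsum'⟩ := Submodule.mem_sup.mp hy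
      obtain ⟨y', rfl⟩ := Ideal.mem_span_singleton'.mp hz
      have : g - f mm * y' ∈ Ideal.span (f '' {i : Fin c | (i : ℕ) < m ∧ i ≠ j}) := by
        apply ih (by omega)
        have : f j * (g - f mm * y') = h + h' * f mm := by
          linear_combination -hsum - f mm * hsum'
        rw [this]
        exact add_mem hh (Ideal.mul_mem_right _ _ hh')
      have e : g = (g - f mm * y') + y' * f mm := by ring
      rw [e]
      exact Submodule.add_mem_sup this (Ideal.mem_span_singleton'.mpr ⟨y', rfl⟩)
  have := key c j.2 le_rfl g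
  have e : {i : Fin c | (i : ℕ) < c ∧ i ≠ j} = {i | i ≠ j} := by
    ext i; simp
  rw [e] at this
  exact this h

end general

attribute [local instance] MvPolynomial.algebraMvPolynomial in
lemma IsReg.baseChange {K k σ : Type*} [Field K] [Field k] [Algebra K k] {c : ℕ}
    {f : Fin c → MvPolynomial σ K} (hf : IsReg f) :
    IsReg (fun i => MvPolynomial.map (algebraMap K k) (f i)) := by
  rw [isReg_iff] at hf ⊢
  have : Module.Flat (MvPolynomial σ K) (MvPolynomial σ k) := by
    have h : Algebra.IsPushout K (MvPolynomial σ K) k (MvPolynomial σ k) := inferInstance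
    exact Module.Flat.isBaseChange K (MvPolynomial σ K) k (MvPolynomial σ k) h.out
  have h := hf.of_flat (S := MvPolynomial σ k)
  rw [List.map_ofFn] at h
  exact h

section hilbert
variable {k : Type*} [Field k] {n c : ℕ}

instance homFin (d : ℕ) : FiniteDimensional k (homogeneousSubmodule (Fin n) k d) :=
  Module.Finite.iff_fg.mpr (homogeneousSubmodule_fg _ _ d)

lemma comp_mul_hom {q : MvPolynomial (Fin n) k} {a : ℕ} (hq : q.IsHomogeneous a)
    (g : MvPolynomial (Fin n) k) (d : ℕ) :
    homogeneousComponent d (q * g) =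
      if a ≤ d then q * homogeneousComponent (d - a) g else 0 := by
  induction g using MvPolynomial.induction_on' with
  | monomial u r =>
    have h1 : (monomial u r : MvPolynomial (Fin n) k).IsHomogeneous u.degree :=
      isHomogeneous_monomial r rfl
    rw [homogeneousComponent_of_mem (hq.mul h1), homogeneousComponent_of_mem h1]
    split_ifs <;> first | rfl | omega | simp
  | add p p' hp hp' =>
    rw [mul_add, map_add, hp, hp']
    split_ifs <;> simp [mul_add]

lemma comp_mem_span {s : Set (MvPolynomial (Fin n) k)} (hs : ∀ q ∈ s, ∃ a, q.IsHomogeneous a)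
    {g : MvPolynomial (Fin n) k} (hg : g ∈ Ideal.span s) (d : ℕ) :
    homogeneousComponent d g ∈ Ideal.span s := by
  rw [Ideal.span, Submodule.mem_span_set'] at hg
  obtain ⟨m, r, x, rfl⟩ := hg
  rw [map_sum]
  refine Submodule.sum_mem _ fun i _ => ?_
  obtain ⟨a, ha⟩ := hs _ (x i).2
  rw [smul_eq_mul, mul_comm, comp_mul_hom ha]
  split_ifs
  · exact Ideal.mul_mem_right _ _ (Ideal.subset_span (x i).2)
  · exact zero_mem _

/-- degree `d` part of an ideal -/
noncomputable abbrev ipart (I : Ideal (MvPolynomial (Fin n) k)) (d : ℕ) :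
    Submodule k (MvPolynomial (Fin n) k) :=
  I.restrictScalars k ⊓ homogeneousSubmodule (Fin n) k d

instance ipartFin (I : Ideal (MvPolynomial (Fin n) k)) (d : ℕ) :
    FiniteDimensional k (ipart I d) :=
  Submodule.finiteDimensional_of_le inf_le_right

lemma linInd_monomial :
    LinearIndependent k (fun u : Fin n →₀ ℕ => (monomial u 1 : MvPolynomial (Fin n) k)) := by
  have := (basisMonomials (Fin n) k).linearIndependent
  simpa [coe_basisMonomials] using this

lemma finrank_span_monomials (T : Finset (Fin n →₀ ℕ)) :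
    finrank k (Submodule.span k ((fun u => (monomial u 1 : MvPolynomial (Fin n) k)) ''
      (T : Set (Fin n →₀ ℕ)))) = T.card := by
  have h := (linInd_monomial (k := k) (n := n)).comp (Subtype.val : T → _) Subtype.val_injective
  have := finrank_span_eq_card h
  rw [Fintype.card_coe] at this
  have e : Set.range ((fun u => (monomial u 1 : MvPolynomial (Fin n) k)) ∘
      (Subtype.val : T → _)) = (fun u => (monomial u 1 : MvPolynomial (Fin n) k)) ''
      (T : Set (Fin n →₀ ℕ)) := by
    ext x; simp
  rw [← this, e]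

lemma mem_span_monomials {T : Set (Fin n →₀ ℕ)} {g : MvPolynomial (Fin n) k} :
    g ∈ Submodule.span k ((fun u => (monomial u 1 : MvPolynomial (Fin n) k)) '' T) ↔
      ∀ u ∈ g.support, u ∈ T := by
  classical
  constructor
  · intro hg
    induction hg using Submodule.span_induction with
    | mem x hx =>
      obtain ⟨v, hv, rfl⟩ := hx
      intro u hu
      have := support_monomial_subset hu
      rw [Finset.mem_singleton] at this
      rwa [this]
    | zero => simp
    | add x y _ _ hx hy =>
      intro u hu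
      rcases Finset.mem_union.mp (support_add hu) with h | h
      exacts [hx u h, hy u h]
    | smul a x _ hx =>
      intro u hu
      exact hx u (support_smul hu)
  · intro h
    rw [g.as_sum]
    refine Submodule.sum_mem _ fun u hu => ?_
    have : monomial u (coeff u g) = coeff u g • (monomial u 1 : MvPolynomial (Fin n) k) := by
      simp [smul_monomial]
    rw [this]
    exact Submodule.smul_mem _ _ (Submodule.subset_span ⟨u, h u hu, rfl⟩)

lemma finrank_of_support (W : Submodule k (MvPolynomial (Fin n) k)) (T : Finset (Fin n →₀ ℕ))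
    (h : ∀ g, g ∈ W ↔ ∀ u ∈ g.support, u ∈ T) : finrank k W = T.card := by
  rw [← finrank_span_monomials (k := k) T]
  have : W = Submodule.span k ((fun u => (monomial u 1 : MvPolynomial (Fin n) k)) ''
      (T : Set (Fin n →₀ ℕ))) := by
    ext g
    rw [h, mem_span_monomials]
    simp
  rw [this]

/-- exponent vectors of degree `d` -/
noncomputable def expo (n d : ℕ) : Finset (Fin n →₀ ℕ) := Finset.univ.finsuppAntidiag d

lemma mem_expo {d : ℕ} {u : Fin n →₀ ℕ} : u ∈ expo n d ↔ u.degree = d := by
  simp [expo, Finsupp.degree_eq_sum]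

lemma card_expo (n d : ℕ) : (expo n d).card = n.multichoose d := by
  simp [expo, Finset.card_finsuppAntidiag_nat_eq_multichoose]

lemma mem_hom_iff {d : ℕ} {g : MvPolynomial (Fin n) k} :
    g.IsHomogeneous d ↔ ∀ u ∈ g.support, u ∈ expo n d := by
  constructor
  · intro h u hu
    rw [mem_expo]
    by_contra hne
    exact (mem_support_iff.mp hu) (h.coeff_eq_zero hne)
  · intro h u hu
    have := mem_expo.mp (h u (mem_support_iff.mpr hu))
    rw [Finsupp.degree_eq_weight_one] at this
    exact this

lemma finrank_hom (d : ℕ) :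
    finrank k (homogeneousSubmodule (Fin n) k d) = n.multichoose d := by
  rw [← card_expo]
  exact finrank_of_support _ _ fun g => by rw [mem_homogeneousSubmodule, mem_hom_iff]

lemma idl_coeff_zero {f : Fin c → MvPolynomial (Fin n) k} {a : ℕ} (ha : 0 < a)
    (hf : ∀ i, (f i).IsHomogeneous a) (m : ℕ) {g : MvPolynomial (Fin n) k} (hg : g ∈ idl f m) :
    constantCoeff g = 0 := by
  have : idl f m ≤ RingHom.ker (constantCoeff : MvPolynomial (Fin n) k →+* k) := by
    rw [idl, Ideal.span_le]
    rintro _ ⟨j, _, rfl⟩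
    exact (hf j).coeff_eq_zero (d := 0) (by simp; omega)
  exact this hg

lemma ipart_low {f : Fin c → MvPolynomial (Fin n) k} {a : ℕ}
    (hf : ∀ i, (f i).IsHomogeneous a) (i : Fin c) {d : ℕ} (hd : d < a) :
    ipart (idl f (i + 1)) d = ipart (idl f i) d := by
  apply le_antisymm
  · rintro g ⟨hg, hd'⟩
    refine ⟨?_, hd'⟩
    obtain ⟨h, hh, y, hy⟩ := (mem_idl_succ f i g).mp hg
    have := congrArg (homogeneousComponent d) hy
    rw [homogeneousComponent_eq_self hd', map_add, comp_mul_hom (hf i), if_neg (by omega),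
      add_zero] at this
    rw [this]
    exact comp_mem_span (by rintro _ ⟨j, _, rfl⟩; exact ⟨a, hf j⟩) hh d
  · rintro g ⟨hg, hd'⟩
    exact ⟨(mem_idl_succ f i g).mpr ⟨g, hg, 0, by simp⟩, hd'⟩

lemma ipart_high {f : Fin c → MvPolynomial (Fin n) k} {a : ℕ} (ha : 0 < a)
    (hf : ∀ i, (f i).IsHomogeneous a) (hreg : IsReg f) (i : Fin c) (d : ℕ) :
    finrank k (ipart (idl f (i + 1)) (d + a)) + finrank k (ipart (idl f i) d) =
      finrank k (ipart (idl f i) (d + a)) + n.multichoose d := by
  have hne : f i ≠ 0 := by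
    intro h0
    have := hreg i 1 (by rw [h0]; simp)
    simpa using idl_coeff_zero ha hf i this
  let φ : MvPolynomial (Fin n) k →ₗ[k] MvPolynomial (Fin n) k := LinearMap.mulLeft k (f i)
  have hφ : Function.Injective φ := fun x y h => mul_left_cancel₀ hne h
  have e1 : ipart (idl f (i + 1)) (d + a) =
      ipart (idl f i) (d + a) ⊔ (homogeneousSubmodule (Fin n) k d).map φ := by
    apply le_antisymm
    · rintro g ⟨hg, hd'⟩
      obtain ⟨h, hh, y, hy⟩ := (mem_idl_succ f i g).mp hg
      have := congrArg (homogeneousComponent (d + a)) hy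
      rw [homogeneousComponent_eq_self hd', map_add, comp_mul_hom (hf i), if_pos (by omega),
        Nat.add_sub_cancel] at this
      rw [this]
      refine Submodule.add_mem_sup ⟨?_, homogeneousComponent_mem _ _⟩
        ⟨_, homogeneousComponent_mem _ _, rfl⟩
      exact comp_mem_span (by rintro _ ⟨j, _, rfl⟩; exact ⟨a, hf j⟩) hh _
    · refine sup_le ?_ ?_
      · rintro g ⟨hg, hd'⟩
        exact ⟨(mem_idl_succ f i g).mpr ⟨g, hg, 0, by simp⟩, hd'⟩
      · rintro _ ⟨g, hg, rfl⟩
        refine ⟨(mem_idl_succ f i _).mpr ⟨0, zero_mem _, g, by simp [φ]⟩, ?_⟩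
        have := (hf i).mul hg
        rwa [add_comm] at this
  have e2 : ipart (idl f i) (d + a) ⊓ (homogeneousSubmodule (Fin n) k d).map φ =
      (ipart (idl f i) d).map φ := by
    apply le_antisymm
    · rintro _ ⟨⟨hg, _⟩, g, hgd, rfl⟩
      exact ⟨g, ⟨hreg i g hg, hgd⟩, rfl⟩
    · rintro _ ⟨g, ⟨hg, hgd⟩, rfl⟩
      refine ⟨⟨Ideal.mul_mem_left _ _ hg, ?_⟩, g, hgd, rfl⟩
      have := (hf i).mul hgd
      rwa [add_comm] at this
  have := Submodule.finrank_sup_add_finrank_inf_eq (ipart (idl f i) (d + a))
    ((homogeneousSubmodule (Fin n) k d).map φ)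
  rw [← e1, e2, ← (Submodule.equivMapOfInjective φ hφ _).finrank_eq,
    ← (Submodule.equivMapOfInjective φ hφ _).finrank_eq, finrank_hom] at this
  exact this

/-- Hilbert series of the quotient by the first `m` members -/
noncomputable def hser (f : Fin c → MvPolynomial (Fin n) k) (m : ℕ) : PowerSeries ℤ :=
  PowerSeries.mk fun d => (n.multichoose d : ℤ) - finrank k (ipart (idl f m) d)

lemma hser_succ {f : Fin c → MvPolynomial (Fin n) k} {a : ℕ} (ha : 0 < a)
    (hf : ∀ i, (f i).IsHomogeneous a) (hreg : IsReg f) (i : Fin c) :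
    hser f (i + 1) = (1 - PowerSeries.X ^ a) * hser f i := by
  ext d
  rw [sub_mul, one_mul, map_sub, PowerSeries.coeff_X_pow_mul']
  split_ifs with h
  · obtain ⟨e, rfl⟩ := Nat.exists_eq_add_of_le' h
    have := ipart_high ha hf hreg i e
    simp only [hser, PowerSeries.coeff_mk, Nat.add_sub_cancel]
    omega
  · simp only [hser, PowerSeries.coeff_mk]
    rw [ipart_low hf i (by omega)]
    simp

lemma hser_zero (f : Fin c → MvPolynomial (Fin n) k) :
    hser f 0 * (1 - PowerSeries.X) ^ n = 1 := by
  have : hser f 0 = PowerSeries.mk fun d => (n.multichoose d : ℤ) := by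
    ext d
    have : ipart (idl f 0) d = ⊥ := by simp [idl_zero, ipart]
    simp [hser, this]
  rw [this]
  clear this
  induction n with
  | zero =>
    ext d
    cases d <;> simp [PowerSeries.coeff_one]
  | succ n ih =>
    have : (PowerSeries.mk fun d => ((n + 1).multichoose d : ℤ)) * (1 - PowerSeries.X) =
        PowerSeries.mk fun d => (n.multichoose d : ℤ) := by
      ext d
      cases d with
      | zero => simp [mul_sub]
      | succ d => simp [mul_sub, PowerSeries.coeff_succ_mul_X, Nat.multichoose_succ_succ]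
    rw [pow_succ', ← mul_assoc, this]
    exact ih (fun _ => 0)

lemma hser_eq {f : Fin c → MvPolynomial (Fin n) k} {a : ℕ} (ha : 0 < a)
    (hf : ∀ i, (f i).IsHomogeneous a) (hreg : IsReg f) (m : ℕ) (hm : m ≤ c) :
    hser f m = (1 - PowerSeries.X ^ a) ^ m * hser f 0 := by
  induction m with
  | zero => simp
  | succ m ih =>
    have := hser_succ ha hf hreg ⟨m, hm⟩
    simp only at this
    rw [this, ih (by omega)]
    ring

lemma hilbert_quadrics {f : Fin n → MvPolynomial (Fin n) k}
    (hf : ∀ i, (f i).IsHomogeneous 2) (hreg : IsReg f) (d : ℕ) :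
    finrank k (ipart (Ideal.span (Set.range f)) d) + n.choose d = n.multichoose d := by
  have h1 := hser_eq (by norm_num) hf hreg n le_rfl
  have h2 := hser_zero f
  have h3 : hser f n = (1 + PowerSeries.X) ^ n := by
    rw [h1]
    have : (1 - PowerSeries.X ^ 2 : PowerSeries ℤ) = (1 + PowerSeries.X) * (1 - PowerSeries.X) := by
      ring
    rw [this, mul_pow, mul_assoc, mul_comm _ (hser f 0), h2, mul_one]
  have h4 := congrArg (PowerSeries.coeff d) h3
  have h5 : ((1 + PowerSeries.X) ^ n : PowerSeries ℤ) =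
      (((1 + Polynomial.X) ^ n : Polynomial ℤ) : PowerSeries ℤ) := by simp
  rw [h5, Polynomial.coeff_coe, Polynomial.coeff_one_add_X_pow] at h4
  simp only [hser, PowerSeries.coeff_mk] at h4
  rw [← idl_top]
  omega

end hilbert

end Vale.Agent.P200
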