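import Vale.Agent.P200.Graded
import Mathlib.RingTheory.PolynomialAlgebra
import Mathlib.RingTheory.Localization.BaseChange
import Mathlib.RingTheory.Localization.FractionRing
import Mathlib.LinearAlgebra.CliffordAlgebra.Contraction
import Mathlib.LinearAlgebra.ExteriorAlgebra.Basis
import Mathlib.LinearAlgebra.Matrix.BilinearForm

/-! The division ring of fractions of a graded domain finite over its parameters. -/

namespace Vale.Agent.P200

open Module TensorProduct

universe u

lemma tensor_domain {O Λ : Type u} [CommRing O] [IsDomain O] [Ring Λ] [IsDomain Λ] [Algebra O Λ]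
    (htf : ∀ (o : O) (x : Λ), o • x = 0 → o = 0 ∨ x = 0) :
    IsDomain (FractionRing O ⊗[O] Λ) ∧
      ∀ x : Λ, (1 : FractionRing O) ⊗ₜ[O] x = 0 → x = 0 := by
  have hinj : ∀ x : Λ, (1 : FractionRing O) ⊗ₜ[O] x = 0 → x = 0 := by
    intro x hx
    obtain ⟨s, hs⟩ := (IsLocalizedModule.eq_zero_iff (nonZeroDivisors O)
      (TensorProduct.mk O (FractionRing O) Λ 1)).mp hx
    exact (htf s x hs).resolve_left (nonZeroDivisors.ne_zero s.2)
  refine ⟨?_, hinj⟩
  have : Nontrivial (FractionRing O ⊗[O] Λ) :=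
    ⟨⟨1, 0, fun h => one_ne_zero (hinj 1 h)⟩⟩
  have : NoZeroDivisors (FractionRing O ⊗[O] Λ) := ⟨fun {x y} h => by
    obtain ⟨⟨a, s⟩, ha⟩ := IsLocalizedModule.surj (nonZeroDivisors O)
      (TensorProduct.mk O (FractionRing O) Λ 1) x
    obtain ⟨⟨b, t⟩, hb⟩ := IsLocalizedModule.surj (nonZeroDivisors O)
      (TensorProduct.mk O (FractionRing O) Λ 1) y
    simp only [Submonoid.smul_def, mk_apply] at ha hb
    have hab : a * b = 0 := by
      apply hinj
      rw [← one_mul (1 : FractionRing O), ← Algebra.TensorProduct.tmul_mul_tmul, ← ha, ← hb,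
        smul_mul_smul_comm, h, smul_zero]
    have key : ∀ (s : nonZeroDivisors O) (x : FractionRing O ⊗[O] Λ), (s : O) • x = 0 → x = 0 := by
      intro s x hx
      have hu := IsLocalization.map_units (FractionRing O) s
      rw [← algebraMap_smul (FractionRing O)] at hx
      exact (hu.smul_eq_zero).mp hx
    rcases mul_eq_zero.mp hab with rfl | rfl
    · left; exact key s x (by simpa using ha)
    · right; exact key t y (by simpa using hb)⟩
  exact NoZeroDivisors.to_isDomain _

lemma frac_of_subalgebra {k O P : Type u} [Field k] [CommRing O] [IsDomain O] [Algebra k O]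
    [Ring P] [Nontrivial P] [Algebra O P] (Λ : Subalgebra O P)
    (hfg : (Subalgebra.toSubmodule Λ).FG) (hdom : ∀ p ∈ Λ, ∀ q ∈ Λ, p * q = 0 → p = 0 ∨ q = 0)
    (hinj : Function.Injective (algebraMap O P)) :
    ∃ (k' D' : Type u) (_ : Field k') (_ : DivisionRing D') (_ : Algebra k' D')
      (_ : FiniteDimensional k' D') (_ : Algebra k k') (Ψ : Λ →+* D'),
      (∀ x, Ψ x = 0 → x = 0) ∧
      ∀ r : k, Ψ (algebraMap O Λ (algebraMap k O r)) = algebraMap k' D' (algebraMap k k' r) := by
  have hdomΛ : IsDomain Λ := by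
    have : NoZeroDivisors Λ := ⟨fun {p q} h =>
      (hdom _ p.2 _ q.2 (congrArg Subtype.val h)).imp Subtype.ext Subtype.ext⟩
    exact NoZeroDivisors.to_isDomain _
  have htfΛ : ∀ (o : O) (x : Λ), o • x = 0 → o = 0 ∨ x = 0 := by
    intro o x h
    rw [Algebra.smul_def, mul_eq_zero] at h
    refine h.imp_left fun h => hinj ?_
    rw [map_zero]
    exact congrArg Subtype.val h
  have hfinΛ : Module.Finite O Λ := Module.Finite.iff_fg.mpr hfg
  obtain ⟨hD, hinj⟩ := tensor_domain htfΛ
  refine ⟨FractionRing O, FractionRing O ⊗[O] Λ, inferInstance,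
    divisionRingOfFiniteDimensional (FractionRing O) _, inferInstance, inferInstance,
    inferInstance, (Algebra.TensorProduct.includeRight (R := O)).toRingHom, hinj, fun r => ?_⟩
  rw [IsScalarTower.algebraMap_apply k O (FractionRing O), ← IsScalarTower.algebraMap_apply O]
  exact (Algebra.TensorProduct.includeRight (R := O) (A := FractionRing O) (B := Λ)).commutes _

attribute [local instance] Polynomial.algebra

open Polynomial in
theorem fraction_ring {k O R : Type u} [Field k] {c : ℕ} [CommRing O] [IsDomain O] [Algebra k O]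
    [Ring R] [Nontrivial R] [Algebra k R] [Algebra O R] [IsScalarTower k O R] (τ : Fin c → O)
    {a : ℕ} (ha : 0 < a) (F : ℕ → Submodule k R) (hfin : ∀ i, FiniteDimensional k (F i))
    (h1 : (1 : R) ∈ F 0) (hmul : ∀ i j, ∀ x ∈ F i, ∀ y ∈ F j, x * y ∈ F (i + j))
    (hX : ∀ j, algebraMap O R (τ j) ∈ F a)
    (hG : EvGen a (fun j x => τ j • x) F)
    (htf : ∀ (o : O) (x : R), o • x = 0 → o = 0 ∨ x = 0)
    (hdom : ∀ i j, ∀ x ∈ F i, ∀ y ∈ F j, x * y = 0 → x = 0 ∨ y = 0) :
    ∃ (k' D' : Type u) (_ : Field k') (_ : DivisionRing D') (_ : Algebra k' D')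
      (_ : FiniteDimensional k' D') (_ : Algebra k k') (Φ : ∀ i, F i →+ D'),
      (∀ i j (x : F i) (y : F j), Φ (i + j) ⟨x * y, hmul i j x x.2 y y.2⟩ = Φ i x * Φ j y) ∧
      (∀ r : k, Φ 0 (r • ⟨1, h1⟩) = algebraMap k' D' (algebraMap k k' r)) ∧
      (∀ i x, Φ i x = 0 → x = 0) := by
  let Λ₀ : Subalgebra k R[X] :=
    { carrier := {p | ∀ i, p.coeff i ∈ F i}
      add_mem' := fun hp hq i => by simpa using add_mem (hp i) (hq i)
      mul_mem' := fun {p q} hp hq i => by
        rw [coeff_mul]
        refine Submodule.sum_mem _ fun x hx => ?_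
        rw [← Finset.mem_antidiagonal.mp hx]
        exact hmul _ _ _ (hp _) _ (hq _)
      algebraMap_mem' := fun r i => by
        rw [Polynomial.algebraMap_apply, coeff_C]
        split_ifs with h
        · rw [h, Algebra.algebraMap_eq_smul_one]; exact Submodule.smul_mem _ _ h1
        · exact zero_mem _ }
  have hmono : ∀ i, ∀ x ∈ F i, monomial i x ∈ Λ₀ := by
    intro i x hx j
    rw [coeff_monomial]
    split_ifs with h
    · exact h ▸ hx
    · exact zero_mem _
  let Λ : Subalgebra (reesRing k a τ) R[X] :=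
    { Λ₀.toSubsemiring with
      algebraMap_mem' := by
        rintro ⟨o, ho⟩
        show Polynomial.map (algebraMap O R) o ∈ Λ₀
        induction ho using Algebra.adjoin_induction with
        | mem x hx =>
          obtain ⟨j, rfl⟩ := hx
          rw [Polynomial.map_monomial]
          exact hmono _ _ (hX j)
        | algebraMap r =>
          have := Λ₀.algebraMap_mem r
          rw [Polynomial.algebraMap_apply] at this ⊢
          rwa [map_C, ← IsScalarTower.algebraMap_apply]
        | add x y _ _ hx hy => rw [Polynomial.map_add]; exact add_mem hx hy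
        | mul x y _ _ hx hy => rw [Polynomial.map_mul]; exact mul_mem hx hy }
  have hdomΛ : ∀ p ∈ Λ, ∀ q ∈ Λ, p * q = 0 → p = 0 ∨ q = 0 := by
    intro p hp q hq e
    by_contra hne
    push Not at hne
    have h0 : p.leadingCoeff * q.leadingCoeff ≠ 0 := fun h0 =>
      (hdom _ _ _ (hp _) _ (hq _) h0).elim (leadingCoeff_ne_zero.mpr hne.1)
        (leadingCoeff_ne_zero.mpr hne.2)
    have := leadingCoeff_mul' h0
    rw [e, leadingCoeff_zero] at this
    exact h0 this.symm
  have hinj : Function.Injective (algebraMap (reesRing k a τ) R[X]) := by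
    have hinj : Function.Injective (algebraMap O R) := by
      rw [injective_iff_map_eq_zero]
      intro o ho
      exact (htf o 1 (by rw [← Algebra.algebraMap_eq_smul_one, ho])).resolve_right one_ne_zero
    exact (Polynomial.map_injective _ hinj).comp Subtype.val_injective
  have hfinΛ : (Subalgebra.toSubmodule Λ).FG := by
    have hfg := fg_abstract (O := reesRing k a τ) ha
      (fun i => (monomial i : R →ₗ[R] R[X]).restrictScalars k)
      (reesGen a τ) (fun j x => τ j • x) (by
        intro i j x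
        show Polynomial.map (algebraMap O R) (monomial a (τ j)) * monomial i x = monomial (i + a) _
        rw [Polynomial.map_monomial, monomial_mul_monomial, add_comm, Algebra.smul_def]) F hfin hG
    have e : Submodule.span (reesRing k a τ)
        (⋃ i, (monomial i : R →ₗ[R] R[X]).restrictScalars k '' F i) =
        Subalgebra.toSubmodule Λ := by
      apply le_antisymm
      · rw [Submodule.span_le]
        intro p hp
        simp only [Set.mem_iUnion] at hp
        obtain ⟨i, x, hx, rfl⟩ := hp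
        exact hmono i x hx
      · intro p hp
        rw [p.as_sum_support]
        exact Submodule.sum_mem _ fun i _ =>
          Submodule.subset_span (Set.mem_iUnion.mpr ⟨i, _, hp i, rfl⟩)
    rwa [e] at hfg
  obtain ⟨k', D', i1, i2, i3, i4, i5, Ψ, hΨ, hΨ'⟩ :=
    frac_of_subalgebra (k := k) Λ hfinΛ hdomΛ hinj
  refine ⟨k', D', i1, i2, i3, i4, i5, fun i => Ψ.toAddMonoidHom.comp
      { toFun := fun x => ⟨monomial i x.1, hmono i x x.2⟩
        map_zero' := by ext1; simp
        map_add' := fun x y => by ext1; simp }, ?_, ?_, ?_⟩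
  · intro i j x y
    refine Eq.trans ?_ (map_mul Ψ _ _)
    refine congrArg Ψ (Subtype.ext ?_)
    exact (monomial_mul_monomial _ _ _ _).symm
  · intro r
    rw [← hΨ']
    refine congrArg Ψ (Subtype.ext ?_)
    show monomial 0 (r • (1 : R)) = Polynomial.map (algebraMap O R) (algebraMap k _ r)
    rw [Polynomial.algebraMap_apply, map_C, ← IsScalarTower.algebraMap_apply, monomial_zero_left,
      Algebra.algebraMap_eq_smul_one]
  · intro i x hx
    have : monomial i x.1 = 0 := congrArg Subtype.val (hΨ _ hx)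
    ext1
    simpa using this

open MvPolynomial

/-- the quadric with coefficient matrix `b` -/
noncomputable def quad {k : Type*} [CommRing k] {n : ℕ} (b : Fin n → Fin n → k) :
    MvPolynomial (Fin n) k := ∑ m, ∑ l, C (b m l) * X m * X l

lemma quad_hom {k : Type*} [CommRing k] {n : ℕ} (b : Fin n → Fin n → k) :
    (quad b).IsHomogeneous 2 :=
  IsHomogeneous.sum _ _ _ fun m _ => IsHomogeneous.sum _ _ _ fun l _ =>
    (isHomogeneous_C_mul_X _ m).mul (isHomogeneous_X _ l)

/-- squares of linear forms with noncommuting coefficients and central variables -/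
lemma sq_sum {B : Type*} [Ring B] {n : ℕ} (g x : Fin n → B) (β : Fin n → Fin n → B)
    (hx : ∀ m y, Commute (x m) y)
    (h1 : ∀ m, g m * g m = β m m) (h2 : ∀ m l, g m * g l + g l * g m = β m l + β l m) :
    (∑ m, g m * x m) ^ 2 = ∑ m, ∑ l, β m l * (x m * x l) := by
  have key : ∀ (s : Finset (Fin n)), (∑ m ∈ s, g m * x m) * (∑ m ∈ s, g m * x m) =
      ∑ m ∈ s, ∑ l ∈ s, β m l * (x m * x l) := by
    intro s
    have hm : ∀ m l, (g m * x m) * (g l * x l) = (g m * g l) * (x m * x l) := by
      intro m l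
      rw [mul_assoc, ← mul_assoc (x m), (hx m (g l)).eq]
      noncomm_ring
    induction s using Finset.induction_on with
    | empty => simp
    | insert a s ha ih =>
      simp only [Finset.sum_insert ha, Finset.sum_add_distrib]
      rw [add_mul, mul_add, mul_add, ih, hm, h1, Finset.mul_sum, Finset.sum_mul]
      have : ∑ i ∈ s, g a * x a * (g i * x i) + ∑ i ∈ s, g i * x i * (g a * x a) =
          ∑ i ∈ s, β a i * (x a * x i) + ∑ i ∈ s, β i a * (x i * x a) := by
        rw [← Finset.sum_add_distrib, ← Finset.sum_add_distrib]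
        refine Finset.sum_congr rfl fun l _ => ?_
        rw [hm, hm, (hx l (x a)).eq, ← add_mul, ← add_mul, h2]
      rw [add_assoc, add_assoc, ← add_assoc (∑ i ∈ s, g a * x a * (g i * x i)), this]
      abel
  rw [pow_two, key]

theorem clifford_model {k O D : Type u} [Field k] [CommRing O] [IsDomain O] [Algebra k O]
    [DivisionRing D] [Algebra k D] {c : ℕ} (ε : O →ₐ[k] k) (B : Fin c → Fin c → O) :
    ∃ (R : Type u) (_ : Ring R) (_ : Nontrivial R) (_ : Algebra k R)
      (_ : Algebra O R) (_ : IsScalarTower k O R)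
      (ι : D →ₐ[k] R) (g : Fin c → R), (∀ d m, Commute (ι d) (g m)) ∧
      (∀ m, g m * g m = algebraMap _ R (B m m)) ∧
      (∀ m l, g m * g l + g l * g m = algebraMap _ R (B m l + B l m)) ∧
      (∀ (o : O) (x : R), o • x = 0 → o = 0 ∨ x = 0) ∧
      ∀ v : Fin c → D, ∑ m, ι (v m) * g m = 0 → v = 0 := by
  let β : LinearMap.BilinForm O (Fin c → O) := Matrix.toBilin' (Matrix.of B)
  let Q := β.toQuadraticMap
  have hQ : (-β).toQuadraticMap = 0 - Q := by ext; simp [Q]
  let e : CliffordAlgebra Q ≃ₗ[O] ExteriorAlgebra O (Fin c → O) :=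
    CliffordAlgebra.changeFormEquiv (B := -β) (Q' := 0) hQ
  have he : ∀ v, e (CliffordAlgebra.ι Q v) = ExteriorAlgebra.ι O v := fun v =>
    CliffordAlgebra.changeForm_ι hQ v
  have hfree : Module.Free O (CliffordAlgebra Q) :=
    .of_basis ((Pi.basisFun O (Fin c)).ExteriorAlgebra.map e.symm)
  have hnt : Nontrivial (CliffordAlgebra Q) := e.toEquiv.nontrivial
  refine ⟨CliffordAlgebra Q ⊗[k] D, inferInstance, inferInstance, inferInstance, inferInstance,
    inferInstance, Algebra.TensorProduct.includeRight,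
    fun m => CliffordAlgebra.ι Q (Pi.single m 1) ⊗ₜ 1, ?_, ?_, ?_, ?_, ?_⟩
  · intro d m
    simp [Commute, SemiconjBy]
  · intro m
    rw [Algebra.TensorProduct.tmul_mul_tmul, CliffordAlgebra.ι_sq_scalar, one_mul]
    simp [Q, β, Matrix.toBilin'_single]
  · intro m l
    rw [Algebra.TensorProduct.tmul_mul_tmul, Algebra.TensorProduct.tmul_mul_tmul, one_mul,
      ← add_tmul, CliffordAlgebra.ι_mul_ι_add_swap]
    simp [Q, β, LinearMap.BilinMap.polar_toQuadraticMap, Matrix.toBilin'_single]
  · intro o x h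
    exact smul_eq_zero.mp h
  · intro v hv
    funext m
    let p : CliffordAlgebra Q →ₗ[k] k := ε.toLinearMap ∘ₗ
      ((LinearMap.proj m ∘ₗ ExteriorAlgebra.ιInv ∘ₗ e.toLinearMap :
        CliffordAlgebra Q →ₗ[O] O).restrictScalars k)
    have hp : ∀ l, p (CliffordAlgebra.ι Q (Pi.single l 1)) = if m = l then 1 else 0 := by
      intro l
      simp only [p, LinearMap.comp_apply, LinearMap.restrictScalars_apply, LinearEquiv.coe_coe, he,
        ExteriorAlgebra.ι_leftInverse _]
      simp [Pi.single_apply, apply_ite ε]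
    have := congrArg (fun x => TensorProduct.lid k D (p.rTensor D x)) hv
    simpa [map_sum, hp] using this

theorem step {k D : Type u} [Field k] [DivisionRing D] [Algebra k D] [FiniteDimensional k D]
    {c : ℕ} (hc : 0 < c) (b : Fin c → Fin c → Fin c → k) (hreg : IsReg fun j => quad (b j)) :
    ∃ (k' D' : Type u) (_ : Field k') (_ : DivisionRing D') (_ : Algebra k' D')
      (_ : FiniteDimensional k' D') (_ : Algebra k k') (ι : D →+* D') (γ τ : Fin c → D'),
      (∀ r : k, ι (algebraMap k D r) = algebraMap k' D' (algebraMap k k' r)) ∧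
      (∀ d m, Commute (ι d) (γ m)) ∧
      (∀ m, γ m * γ m = ∑ j, τ j * ι (algebraMap k D (b j m m))) ∧
      (∀ m l, γ m * γ l + γ l * γ m =
        ∑ j, τ j * ι (algebraMap k D (b j m l)) + ∑ j, τ j * ι (algebraMap k D (b j l m))) ∧
      ∀ v : Fin c → D, ∑ m, ι (v m) * γ m = 0 → v = 0 := by
  let B : Fin c → Fin c → MvPolynomial (Fin c) k := fun m l => ∑ j, X j * C (b j m l)
  have hB : ∀ m l, (B m l).IsHomogeneous 1 := fun m l =>
    IsHomogeneous.sum _ _ _ fun j _ => by
      rw [mul_comm]; exact isHomogeneous_C_mul_X _ _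
  obtain ⟨R, i1, i2, i3, i4, i5, ι, g, hcomm, h1, h2, htf, hind⟩ :=
    clifford_model (k := k) (D := D) (aeval fun _ => (0 : k)) B
  have hBR : ∀ m l, algebraMap _ R (B m l) =
      ∑ j, algebraMap (MvPolynomial (Fin c) k) R (X j) * ι (algebraMap k D (b j m l)) := by
    intro m l
    simp only [B, map_sum, map_mul, AlgHom.commutes]
    refine Finset.sum_congr rfl fun j _ => ?_
    rw [IsScalarTower.algebraMap_apply k (MvPolynomial (Fin c) k) R]
    rfl
  have hrel : (∑ m, g m ⊗ₜ[k] (X m : MvPolynomial (Fin c) k)) ^ 2 =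
      ∑ j, algebraMap (MvPolynomial (Fin c) k) R (X j) ⊗ₜ quad (b j) := by
    have := sq_sum (B := R ⊗[k] MvPolynomial (Fin c) k) (fun m => g m ⊗ₜ 1)
      (fun m => 1 ⊗ₜ X m) (fun m l => algebraMap _ R (B m l) ⊗ₜ 1)
      (fun m y => one_tmul_comm' _ y) (fun m => by simp [h1])
      (fun m l => by simp [← add_tmul, h2])
    simp only [Algebra.TensorProduct.tmul_mul_tmul, mul_one, one_mul] at this
    rw [this]
    simp only [hBR, AlgHom.commutes, sum_tmul, quad, tmul_sum]
    conv_rhs => rw [Finset.sum_comm]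
    refine Finset.sum_congr rfl fun m _ => ?_
    conv_rhs => rw [Finset.sum_comm]
    refine Finset.sum_congr rfl fun l _ => Finset.sum_congr rfl fun j _ => ?_
    rw [← Algebra.commutes, ← Algebra.smul_def, smul_tmul, smul_eq_C_mul, mul_assoc]
  have one_mem : (1 : R) ∈ Fd g ι 0 := by
    have := mul_mem_Fd g ι 1 (list_mem_Wd (k := k) g (r := 0) (l := []) (by simp) (by simp))
    simpa using this
  have hX : ∀ j, algebraMap (MvPolynomial (Fin c) k) R (X j) ∈ Fd g ι 2 := fun j => by
    rw [Algebra.algebraMap_eq_smul_one]; exact Fd_X g ι 0 j 1 one_mem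
  have hι : ∀ d, ι d ∈ Fd g ι 0 := fun d => by simpa using Fd_ι g ι 0 d 1 one_mem
  have hg : ∀ m, g m ∈ Fd g ι 1 := fun m => by simpa using Fd_g hB h1 h2 hcomm 0 m 1 one_mem
  obtain ⟨k', D', j1, j2, j3, j4, j5, Φ, Φmul, Φk, Φinj⟩ :=
    fraction_ring (k := k) (fun j => (X j : MvPolynomial (Fin c) k)) (a := 2) (by norm_num)
      (Fd g ι) (fun i => inferInstance) one_mem
      (fun i j x hx y hy => Fd_mul hB h1 h2 hcomm hx hy) hX (evGen_Fd g ι) htf
      (fun i j x hx y hy => graded_domain hB h1 h2 hcomm hc (fun j => quad_hom _) hreg hrel htf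
        hx hy)
  let ι' : D →+* D' :=
    { toFun := fun d => Φ 0 ⟨ι d, hι d⟩
      map_one' := by
        have := Φk 1
        simp only [one_smul, map_one] at this
        simpa using this
      map_mul' := fun x y => by
        rw [← Φmul 0 0]; congr 1; ext1; simp
      map_zero' := by
        rw [← map_zero (Φ 0)]; congr 1; ext1; simp
      map_add' := fun x y => by
        rw [← map_add]; congr 1; ext1; simp }
  have hsum : ∀ m l, ∑ j, Φ 2 ⟨_, hX j⟩ * ι' (algebraMap k D (b j m l)) =
      Φ 2 ⟨algebraMap _ R (B m l), by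
        rw [Algebra.algebraMap_eq_smul_one]
        exact hom_smul_mem _ (Fd_X g ι) (hB m l) one_mem⟩ := by
    intro m l
    simp only [ι', RingHom.coe_mk, MonoidHom.coe_mk, OneHom.coe_mk, ← Φmul 2 0, ← map_sum]
    congr 1
    ext1
    simp [hBR]
  refine ⟨k', D', j1, j2, j3, j4, j5, ι', fun m => Φ 1 ⟨g m, hg m⟩, fun j => Φ 2 ⟨_, hX j⟩,
    ?_, ?_, ?_, ?_, ?_⟩
  · intro r
    rw [← Φk]
    show Φ 0 _ = _
    congr 1
    ext1
    simp [Algebra.algebraMap_eq_smul_one]
  · intro d m
    show Φ 0 _ * Φ 1 _ = Φ 1 _ * Φ 0 _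
    rw [← Φmul 0 1, ← Φmul 1 0]
    congr 1
    ext1
    exact (hcomm d m).eq
  · intro m
    rw [hsum, ← Φmul 1 1]
    congr 1
    ext1
    exact h1 m
  · intro m l
    rw [hsum, hsum, ← Φmul 1 1, ← Φmul 1 1, ← map_add, ← map_add]
    congr 1
    ext1
    simpa using h2 m l
  · intro v hv
    apply hind
    simp only [ι', RingHom.coe_mk, MonoidHom.coe_mk, OneHom.coe_mk, ← Φmul 0 1, ← map_sum] at hv
    have := congrArg Subtype.val (Φinj _ _ hv)
    simpa using this

end Vale.Agent.P200
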