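import Vale.Agent.P200.Step
import Vale.Agent.P200.Frame
import Vale.Agent.P200.Elim
import Mathlib.FieldTheory.IsAlgClosed.AlgebraicClosure

/-! A division ring with a basis of commuting linear forms whose squares lie in the ideal. -/

namespace Vale.Agent.P200

open MvPolynomial Module TensorProduct

universe u

lemma quad_map {k k' : Type*} [CommRing k] [CommRing k'] (φ : k →+* k') {n : ℕ}
    (b : Fin n → Fin n → k) : map φ (quad b) = quad fun m l => φ (b m l) := by
  simp [quad, map_sum]

lemma exists_kernel {k D : Type*} [Field k] [DivisionRing D] [Algebra k D] [FiniteDimensional k D]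
    {i c : ℕ} (h : i < c) (r : Fin i → Fin c → D) :
    ∃ v : Fin c → D, v ≠ 0 ∧ ∀ a, ∑ m, r a m * v m = 0 := by
  let φ : (Fin c → D) →ₗ[k] (Fin i → D) :=
    LinearMap.pi fun a => ∑ m, (LinearMap.mulLeft k (r a m)).comp (LinearMap.proj m)
  have hlt : finrank k (Fin i → D) < finrank k (Fin c → D) := by
    simp only [Module.finrank_pi_fintype, Finset.sum_const, Finset.card_univ, Fintype.card_fin,
      smul_eq_mul]
    exact Nat.mul_lt_mul_of_pos_right h Module.finrank_pos
  obtain ⟨v, hv, hv0⟩ := (Submodule.ne_bot_iff _).mp (φ.ker_ne_bot_of_finrank_lt hlt)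
  refine ⟨v, hv0, fun a => ?_⟩
  have := congrFun (LinearMap.mem_ker.mp hv) a
  simpa [φ] using this

theorem tower {k : Type u} [Field k] {c : ℕ} (b : Fin c → Fin c → Fin c → k)
    (hreg : IsReg fun j => quad (b j)) (i : ℕ) (hi : i ≤ c) :
    ∃ (k' D : Type u) (_ : Field k') (_ : DivisionRing D) (_ : Algebra k' D)
      (_ : FiniteDimensional k' D) (_ : Algebra k k') (γ τ : Fin i → Fin c → D)
      (w : Fin c → Fin i → D),
      (∀ a a', a ≠ a' → ∀ m l, Commute (γ a m) (γ a' l)) ∧
      (∀ a m, γ a m * γ a m = ∑ j, τ a j * algebraMap k' D (algebraMap k k' (b j m m))) ∧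
      (∀ a m l, γ a m * γ a l + γ a l * γ a m =
        ∑ j, τ a j * algebraMap k' D (algebraMap k k' (b j m l)) +
        ∑ j, τ a j * algebraMap k' D (algebraMap k k' (b j l m))) ∧
      ∀ a a', ∑ m, γ a m * w m a' = if a = a' then 1 else 0 := by
  induction i with
  | zero =>
    exact ⟨k, k, inferInstance, inferInstance, inferInstance, inferInstance, inferInstance,
      Fin.elim0, Fin.elim0, fun _ => Fin.elim0, fun a => a.elim0, fun a => a.elim0,
      fun a => a.elim0, fun a => a.elim0⟩
  | succ i ih =>
    obtain ⟨k1, D, i1, i2, i3, i4, i5, γ, τ, w, hcomm, h1, h2, hw⟩ := ih (by omega)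
    have hreg1 : IsReg fun j => quad fun m l => algebraMap k k1 (b j m l) := by
      simpa [quad_map] using hreg.baseChange (k := k1)
    obtain ⟨k2, D', j1, j2, j3, j4, j5, ι, γ', τ', hι, hc, h1', h2', hind⟩ :=
      step (D := D) (by omega) _ hreg1
    obtain ⟨v, hv0, hv⟩ := exists_kernel (k := k1) (by omega : i < c) γ
    let s : D' := ∑ m, γ' m * ι (v m)
    have hs : s ≠ 0 := by
      intro h
      apply hv0
      apply hind
      rw [← h]
      exact Finset.sum_congr rfl fun m _ => (hc _ _).eq
    let alg : Algebra k k2 := ((algebraMap k1 k2).comp (algebraMap k k1)).toAlgebra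
    have halg : ∀ r : k, algebraMap k2 D' (algebraMap k k2 r) =
        ι (algebraMap k1 D (algebraMap k k1 r)) := fun r => (hι _).symm
    refine ⟨k2, D', j1, j2, j3, j4, alg, Fin.cons γ' fun a m => ι (γ a m),
      Fin.cons τ' fun a m => ι (τ a m), fun m => Fin.cons (ι (v m) * s⁻¹)
        fun a => ι (w m a) - ι (v m) * s⁻¹ * ∑ l, γ' l * ι (w l a), ?_, ?_, ?_, ?_⟩
    · intro a a' haa m l
      induction a using Fin.cases with
      | zero =>
        induction a' using Fin.cases with
        | zero => exact absurd rfl haa
        | succ a' => simpa using (hc _ _).symm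
      | succ a =>
        induction a' using Fin.cases with
        | zero => simpa using hc _ _
        | succ a' => simpa using (hcomm a a' (fun h => haa (by rw [h])) m l).map ι
    · intro a m
      induction a using Fin.cases with
      | zero => simpa [halg] using h1' m
      | succ a => simpa [halg] using congrArg ι (h1 a m)
    · intro a m l
      induction a using Fin.cases with
      | zero => simpa [halg] using h2' m l
      | succ a => simpa [halg] using congrArg ι (h2 a m l)
    · have hv' : ∀ a, ∑ m, ι (γ a m) * ι (v m) = 0 := fun a => by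
        simpa using congrArg ι (hv a)
      have hw' : ∀ a a', ∑ m, ι (γ a m) * ι (w m a') = if a = a' then 1 else 0 := fun a a' => by
        simpa [apply_ite ι] using congrArg ι (hw a a')
      intro a a'
      induction a using Fin.cases with
      | zero =>
        induction a' using Fin.cases with
        | zero =>
          simp only [Fin.cons_zero, ← mul_assoc, ← Finset.sum_mul, if_true]
          exact mul_inv_cancel₀ hs
        | succ a' =>
          simp only [Fin.cons_zero, Fin.cons_succ, mul_sub, Finset.sum_sub_distrib, ← mul_assoc,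
            ← Finset.sum_mul]
          rw [mul_inv_cancel₀ hs, one_mul, sub_self, if_neg (Fin.succ_ne_zero a').symm]
      | succ a =>
        induction a' using Fin.cases with
        | zero =>
          simp only [Fin.cons_zero, Fin.cons_succ, ← mul_assoc, ← Finset.sum_mul, hv']
          simp
        | succ a' =>
          simp only [Fin.cons_succ, mul_sub, Finset.sum_sub_distrib, ← mul_assoc,
            ← Finset.sum_mul, hv', hw']
          simp

lemma exists_quad {k : Type*} [Field k] {n : ℕ} {q : MvPolynomial (Fin n) k}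
    (hq : q.IsHomogeneous 2) : ∃ b, q = quad b := by
  classical
  have h : q ∈ homogeneousSubmodule (Fin n) k 1 ^ 2 := by
    rwa [homogeneousSubmodule_one_pow]
  rw [homogeneousSubmodule_one_eq_span_X, pow_two, Submodule.span_mul_span] at h
  clear hq
  induction h using Submodule.span_induction with
  | mem x hx =>
    obtain ⟨_, ⟨m, rfl⟩, _, ⟨l, rfl⟩, rfl⟩ := hx
    refine ⟨Pi.single m (Pi.single l 1), ?_⟩
    simp [quad, Pi.single_apply, apply_ite C, ite_apply]
  | zero => exact ⟨0, by simp [quad]⟩
  | add x y _ _ hx hy =>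
    obtain ⟨b, rfl⟩ := hx
    obtain ⟨b', rfl⟩ := hy
    exact ⟨b + b', by simp [quad, add_mul, Finset.sum_add_distrib]⟩
  | smul a x _ hx =>
    obtain ⟨b, rfl⟩ := hx
    exact ⟨a • b, by simp [quad, smul_eq_C_mul, Finset.mul_sum, mul_assoc]⟩

lemma linSub_quad {k : Type u} [Field k] {n c : ℕ} (lam : Fin n → Fin c → k)
    (b : Fin n → Fin n → k) :
    linSub lam (quad b) = quad fun m m' => ∑ p, ∑ l, lam p m * b p l * lam l m' := by
  simp only [linSub, quad, map_sum, map_mul, aeval_C, aeval_X, algebraMap_eq, Finset.sum_mul,
    Finset.mul_sum]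
  calc _ = ∑ p, ∑ l, ∑ m, ∑ m', C (lam p m) * C (b p l) * C (lam l m') * X m * X m' := by
        refine Finset.sum_congr rfl fun p _ => Finset.sum_congr rfl fun l _ => ?_
        rw [Finset.sum_comm]
        refine Finset.sum_congr rfl fun m _ => Finset.sum_congr rfl fun m' _ => ?_
        ring
    _ = ∑ p, ∑ m, ∑ m', ∑ l, C (lam p m) * C (b p l) * C (lam l m') * X m * X m' := by
        refine Finset.sum_congr rfl fun p _ => ?_
        rw [Finset.sum_comm]
        exact Finset.sum_congr rfl fun m _ => Finset.sum_comm
    _ = _ := by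
        rw [Finset.sum_comm]
        exact Finset.sum_congr rfl fun m _ => Finset.sum_comm

end Vale.Agent.P200
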